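import Mathlib

/-!
Number theoretic core of the single-fold elimination of a bounded universal quantifier.
-/

namespace Vale.Agent.P345

open Finset

theorem exists_moduli {b L : ℕ} (hb : b ≤ L) (h3 : 3 ≤ L) : ∃ m : ℕ → ℕ,
    Nat.choose (L.factorial ^ 2 - 1) b = ∏ y ∈ range b, m y ∧
    ∀ y < b, 1 < m y ∧ (L.factorial ^ 2 - 1 ≡ y [MOD m y]) ∧
      ∀ r : ℕ, r.Prime → r ∣ m y → L < r := by
  have hw : ∀ y, y < b → ∃ w, 0 < w ∧ L.factorial = (y + 1) * w := fun y hy => by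
    obtain ⟨w, hw⟩ := Nat.dvd_factorial (Nat.succ_pos y) (show y + 1 ≤ L by omega)
    refine ⟨w, Nat.pos_of_ne_zero ?_, hw⟩
    rintro rfl
    exact L.factorial_ne_zero (by simpa using hw)
  choose! w wpos hw using hw
  have f6 : 3 ≤ L.factorial := h3.trans L.self_le_factorial
  have key : ∀ y < b, (y + 1) * (w y * L.factorial - 1) + y = L.factorial ^ 2 - 1 := by
    intro y hy
    have h1 : 1 ≤ w y * L.factorial := Nat.mul_pos (wpos y hy) L.factorial_pos
    have h2 : L.factorial ^ 2 = (y + 1) * (w y * L.factorial) := by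
      rw [← mul_assoc, ← hw y hy, sq]
    obtain ⟨t, ht⟩ : ∃ t, w y * L.factorial = t + 1 := ⟨_, (Nat.sub_add_cancel h1).symm⟩
    rw [h2, ht, Nat.add_sub_cancel, mul_add, mul_one]
    omega
  refine ⟨fun y => w y * L.factorial - 1, ?_, fun y hy => ⟨?_, ?_, ?_⟩⟩
  · apply Nat.eq_of_mul_eq_mul_left b.factorial_pos
    rw [← Nat.descFactorial_eq_factorial_mul_choose, Nat.descFactorial_eq_prod_range,
      ← prod_range_add_one_eq_factorial b, ← prod_mul_distrib]
    refine prod_congr rfl fun y hy => ?_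
    have := key y (mem_range.1 hy)
    omega
  · have := wpos y hy
    have : L.factorial ≤ w y * L.factorial := Nat.le_mul_of_pos_left _ this
    beta_reduce
    omega
  · rw [← key y hy]
    exact (Nat.ModEq.add_right y ((Dvd.intro_left _ rfl).modEq_zero_nat)).trans (by simp [Nat.ModEq])
  · intro r pr hr
    by_contra hc
    have h1 : r ∣ w y * L.factorial := Dvd.dvd.mul_left (pr.dvd_factorial.2 (by omega)) _
    have h2 : 1 ≤ w y * L.factorial := Nat.mul_pos (wpos y hy) L.factorial_pos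
    have := Nat.dvd_sub h1 hr
    rw [show w y * L.factorial - (w y * L.factorial - 1) = 1 by omega] at this
    exact pr.one_lt.ne' (Nat.dvd_one.1 this)

theorem small_residue {r X c : ℕ} (pr : r.Prime) (h : r ∣ X.descFactorial (c + 1)) :
    ∃ j ≤ c, X ≡ j [MOD r] := by
  rw [Nat.descFactorial_eq_prod_range] at h
  obtain ⟨j, hj, hj'⟩ := (Prime.dvd_finsetProd_iff pr.prime _).1 h
  rw [mem_range] at hj
  rcases le_total j X with hle | hle
  · exact ⟨j, by omega, ((Nat.modEq_iff_dvd' hle).2 hj').symm⟩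
  · exact ⟨X, by omega, Nat.ModEq.refl _⟩

theorem lift_residue {m X c x : ℕ} (hm : 1 < m) (h : m ∣ X.descFactorial (c + 1)) (hx : x ≤ c)
    (H : ∀ r : ℕ, r.Prime → r ∣ m → c < r ∧ X ≡ x [MOD r]) : X ≡ x [MOD m] := by
  rcases le_or_gt X c with hle | hlt
  · obtain ⟨r, pr, hr⟩ := Nat.exists_prime_and_dvd hm.ne'
    obtain ⟨h1, h2⟩ := H r pr hr
    rw [Nat.ModEq.eq_of_lt_of_lt h2 (by omega) (by omega)]
  · rw [Nat.descFactorial_eq_prod_range, ← mul_prod_erase _ _ (mem_range.2 (show x < c + 1 by omega))]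
      at h
    have : Nat.Coprime m (∏ j ∈ (range (c + 1)).erase x, (X - j)) := by
      refine Nat.Coprime.prod_right fun j hj => ?_
      rw [mem_erase, mem_range] at hj
      refine Nat.coprime_of_dvd fun r pr h1 h2 => hj.1 ?_
      obtain ⟨h3, h4⟩ := H r pr h1
      have h5 : j ≡ X [MOD r] := (Nat.modEq_iff_dvd' (by omega)).2 h2
      exact Nat.ModEq.eq_of_lt_of_lt (h5.trans h4) (by omega) (by omega)
    exact ((Nat.modEq_iff_dvd' (by omega)).2 (this.dvd_of_dvd_mul_right h)).symm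

/-- The system replacing the bounded universal quantifier. -/
def BPhi {β : Type} [Fintype β] (P : ℕ → (β → ℕ) → ℤ) (b L c : ℕ) (X : β → ℕ) : Prop :=
  (∀ i, X i < Nat.choose (L.factorial ^ 2 - 1) b) ∧
  Nat.choose (L.factorial ^ 2 - 1) b ∣ (P (L.factorial ^ 2 - 1) X).natAbs ∧
  (∀ i, Nat.choose (L.factorial ^ 2 - 1) b ∣ (X i).descFactorial (c + 1)) ∧
  (c = 0 ∨ (0 < c ∧ Nat.gcd (Nat.choose (L.factorial ^ 2 - 1) b)
    (∏ i, (X i + (Nat.choose (L.factorial ^ 2 - 1) b - 1) * c)) ≠ 1))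

theorem ball_core {β : Type} [Fintype β] (P : ℕ → (β → ℕ) → ℤ) (b : ℕ) (L : ℕ → ℕ)
    (hcong : ∀ (r y y' : ℕ) (x x' : β → ℕ), y ≡ y' [MOD r] → (∀ i, x i ≡ x' i [MOD r]) →
      P y x ≡ P y' x' [ZMOD r])
    (huniq : ∀ y x x', P y x = 0 → P y x' = 0 → x = x')
    (hL : ∀ c, b ≤ L c ∧ 3 ≤ L c ∧ c ≤ L c ∧
      ∀ y < b, ∀ x : β → ℕ, (∀ i, x i ≤ c) → (P y x).natAbs ≤ L c) :
    ((∀ y < b, ∃ x, P y x = 0) ↔ ∃ c X, BPhi P b (L c) c X) ∧
    ∀ c X c' X', BPhi P b (L c) c X → BPhi P b (L c') c' X' → c = c' ∧ X = X' := by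
  classical
  have hm := fun c => exists_moduli (hL c).1 (hL c).2.1
  choose m hM hm using hm
  have cop : ∀ c, ∀ y < b, ∀ y' < b, y ≠ y' → Nat.Coprime (m c y) (m c y') := by
    intro c y hy y' hy' hne
    refine Nat.coprime_of_dvd fun r pr h1 h2 => hne ?_
    have h3 := ((hm c y hy).2.1.of_dvd h1).symm.trans ((hm c y' hy').2.1.of_dvd h2)
    have h4 := (hm c y hy).2.2 r pr h1
    have := (hL c).1
    exact Nat.ModEq.eq_of_lt_of_lt h3 (by omega) (by omega)
  have pd : ∀ c (z : ℤ), (∀ y < b, (m c y : ℤ) ∣ z) →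
      ((Nat.choose ((L c).factorial ^ 2 - 1) b : ℕ) : ℤ) ∣ z := by
    intro c z hz
    rw [hM, Nat.cast_prod]
    refine prod_dvd_of_coprime (fun y hy y' hy' hne => ?_) fun y hy => hz y (mem_range.1 hy)
    exact Nat.isCoprime_iff_coprime.2
      (cop c y (mem_range.1 (mem_coe.1 hy)) y' (mem_range.1 (mem_coe.1 hy')) hne)
  have md : ∀ c, ∀ y < b, m c y ∣ Nat.choose ((L c).factorial ^ 2 - 1) b := fun c y hy => by
    rw [hM]
    exact dvd_prod_of_mem _ (mem_range.2 hy)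
  have Mpos : ∀ c, 0 < Nat.choose ((L c).factorial ^ 2 - 1) b := fun c => by
    rw [hM]
    exact prod_pos fun y hy => lt_trans zero_lt_one (hm c y (mem_range.1 hy)).1
  have key : ∀ c X, BPhi P b (L c) c X → ∀ y < b, ∃ x, P y x = 0 ∧ (∀ i, x i ≤ c) ∧
      ∀ i, X i ≡ x i [MOD m c y] := by
    rintro c X ⟨-, h2, h3, -⟩ y hy
    have pr : ∀ r : ℕ, r.Prime → r ∣ m c y →
        ∃ x, P y x = 0 ∧ (∀ i, x i ≤ c) ∧ ∀ i, X i ≡ x i [MOD r] := by
      intro r pr hr
      have hrM := hr.trans (md c y hy)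
      choose x hx1 hx2 using fun i => small_residue pr (hrM.trans (h3 i))
      refine ⟨x, ?_, hx1, hx2⟩
      have e1 := hcong r _ _ X x ((hm c y hy).2.1.of_dvd hr) hx2
      have e2 : (r : ℤ) ∣ P ((L c).factorial ^ 2 - 1) X := Int.natCast_dvd.2 (hrM.trans h2)
      have e3 : (r : ℤ) ∣ P y x := (e1.dvd_iff).1 e2
      have e4 := (hL c).2.2.2 y hy x hx1
      have e5 := (hm c y hy).2.2 r pr hr
      have e6 := Int.natCast_dvd.1 e3
      have := Nat.eq_zero_of_dvd_of_lt e6 (by omega)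
      omega
    obtain ⟨r₀, pr₀, hr₀⟩ := Nat.exists_prime_and_dvd (hm c y hy).1.ne'
    obtain ⟨x, hx0, hx1, -⟩ := pr r₀ pr₀ hr₀
    refine ⟨x, hx0, hx1, fun i => lift_residue (hm c y hy).1 ((md c y hy).trans (h3 i)) (hx1 i) ?_⟩
    intro r prr hr
    obtain ⟨x', hx0', -, hx2'⟩ := pr r prr hr
    rw [huniq y x x' hx0 hx0']
    exact ⟨lt_of_le_of_lt (hL c).2.2.1 ((hm c y hy).2.2 r prr hr), hx2' i⟩
  have att : ∀ c X, BPhi P b (L c) c X → c = 0 ∨ ∃ y < b, ∃ x i, P y x = 0 ∧ x i = c := by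
    intro c X h
    rcases h.2.2.2 with h0 | ⟨-, hg⟩
    · exact Or.inl h0
    right
    obtain ⟨r, pr, hr⟩ := Nat.exists_prime_and_dvd hg
    have h1 := hr.trans (Nat.gcd_dvd_left _ _)
    have h2 := hr.trans (Nat.gcd_dvd_right _ _)
    obtain ⟨i, -, hi⟩ := (Prime.dvd_finsetProd_iff pr.prime _).1 h2
    have h1' := h1
    rw [hM] at h1'
    obtain ⟨y, hy, hy'⟩ := (Prime.dvd_finsetProd_iff pr.prime _).1 h1'
    rw [mem_range] at hy
    obtain ⟨x, hx0, hx1, hx2⟩ := key c X h y hy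
    refine ⟨y, hy, x, i, hx0, ?_⟩
    have e5 := (hm c y hy).2.2 r pr hy'
    have e6 := (hL c).2.2.1
    have e7 := hx1 i
    obtain ⟨M, hM'⟩ : ∃ M, Nat.choose ((L c).factorial ^ 2 - 1) b = M + 1 :=
      ⟨_, (Nat.sub_add_cancel (Mpos c)).symm⟩
    rw [hM'] at h1 hi
    rw [Nat.add_sub_cancel] at hi
    have e8 : X i ≡ c [MOD r] := by
      calc X i = X i + 0 := rfl
        _ ≡ X i + (M + 1) * c [MOD r] :=
          Nat.ModEq.add_left _ (Dvd.dvd.mul_right h1 c).zero_modEq_nat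
        _ = (X i + M * c) + c := by ring
        _ ≡ 0 + c [MOD r] := Nat.ModEq.add_right _ hi.modEq_zero_nat
        _ = c := zero_add c
    exact Nat.ModEq.eq_of_lt_of_lt (((hx2 i).of_dvd hy').symm.trans e8) (by omega) (by omega)
  refine ⟨⟨fun H => ?_, ?_⟩, ?_⟩
  · choose! x hx using H
    set c := (range b).sup fun y => univ.sup (x y) with hc
    have xle : ∀ y < b, ∀ i, x y i ≤ c := fun y hy i =>
      (le_sup (f := x y) (mem_univ i)).trans
        (le_sup (f := fun y => univ.sup (x y)) (mem_range.2 hy))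
    have crt : ∀ i, ∃ X, X < Nat.choose ((L c).factorial ^ 2 - 1) b ∧
        ∀ y < b, X ≡ x y i [MOD m c y] := by
      intro i
      obtain ⟨X, hX⟩ := Nat.chineseRemainderOfFinset (fun y => x y i) (m c) (range b)
        (fun y hy => by have := (hm c y (mem_range.1 hy)).1; omega)
        (fun y hy y' hy' hne =>
          cop c y (mem_range.1 (mem_coe.1 hy)) y' (mem_range.1 (mem_coe.1 hy')) hne)
      exact ⟨X % _, Nat.mod_lt _ (Mpos c), fun y hy =>
        ((Nat.mod_modEq _ _).of_dvd (md c y hy)).trans (hX y (mem_range.2 hy))⟩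
    choose X hX1 hX2 using crt
    refine ⟨c, X, hX1, ?_, fun i => ?_, ?_⟩
    · rw [← Int.natCast_dvd]
      refine pd c _ fun y hy => ?_
      have e1 := hcong (m c y) _ _ X (x y) (hm c y hy).2.1 fun i => hX2 i y hy
      rw [hx y hy] at e1
      exact (Int.modEq_zero_iff_dvd).1 e1
    · rw [← Int.natCast_dvd_natCast]
      refine pd c _ fun y hy => ?_
      rw [Int.natCast_dvd_natCast, Nat.descFactorial_eq_prod_range]
      refine Dvd.dvd.trans ?_ (dvd_prod_of_mem _ (mem_range.2 (Nat.lt_succ_of_le (xle y hy i))))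
      rcases le_total (x y i) (X i) with hle | hle
      · exact (Nat.modEq_iff_dvd' hle).1 (hX2 i y hy).symm
      · rw [Nat.sub_eq_zero_of_le hle]
        exact dvd_zero _
    · rcases c.eq_zero_or_pos with h0 | h0
      · exact Or.inl h0
      refine Or.inr ⟨h0, ?_⟩
      obtain ⟨y, hy, i, hi⟩ : ∃ y < b, ∃ i, x y i = c := by
        by_contra hcon
        push Not at hcon
        have : c < c := by
          conv_lhs => rw [hc]
          rw [Finset.sup_lt_iff (show ⊥ < c from h0)]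
          intro y hy
          rw [Finset.sup_lt_iff (show ⊥ < c from h0)]
          intro i _
          exact lt_of_le_of_ne (xle y (mem_range.1 hy) i) (hcon y (mem_range.1 hy) i)
        exact lt_irrefl _ this
      intro hg
      have h1 := md c y hy
      have h2 : m c y ∣ X i + (Nat.choose ((L c).factorial ^ 2 - 1) b - 1) * c := by
        obtain ⟨M, hM'⟩ : ∃ M, Nat.choose ((L c).factorial ^ 2 - 1) b = M + 1 :=
          ⟨_, (Nat.sub_add_cancel (Mpos c)).symm⟩
        rw [hM'] at h1 ⊢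
        rw [Nat.add_sub_cancel, ← Nat.modEq_zero_iff_dvd]
        calc X i + M * c ≡ c + M * c [MOD m c y] := Nat.ModEq.add_right _ (hi ▸ hX2 i y hy)
          _ = (M + 1) * c := by ring
          _ ≡ 0 [MOD m c y] := (Dvd.dvd.mul_right h1 c).modEq_zero_nat
      have h3 := Nat.dvd_gcd h1 (h2.trans (dvd_prod_of_mem
        (fun i => X i + (Nat.choose ((L c).factorial ^ 2 - 1) b - 1) * c) (mem_univ i)))
      rw [hg] at h3
      exact (hm c y hy).1.ne' (Nat.dvd_one.1 h3)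
  · rintro ⟨c, X, h⟩ y hy
    obtain ⟨x, hx, -⟩ := key c X h y hy
    exact ⟨x, hx⟩
  · have cle : ∀ c X c' X', BPhi P b (L c) c X → BPhi P b (L c') c' X' → c ≤ c' := by
      intro c X c' X' h h'
      rcases att c X h with h0 | ⟨y, hy, x, i, hx, hi⟩
      · omega
      · obtain ⟨x', hx', hle, -⟩ := key c' X' h' y hy
        rw [← hi, huniq y x x' hx hx']
        exact hle i
    intro c X c' X' h h'
    obtain rfl : c = c' := le_antisymm (cle _ _ _ _ h h') (cle _ _ _ _ h' h)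
    refine ⟨rfl, funext fun i => Nat.ModEq.eq_of_lt_of_lt ?_ (h.1 i) (h'.1 i)⟩
    rw [Nat.modEq_iff_dvd]
    refine pd c _ fun y hy => ?_
    obtain ⟨x, hx, -, e⟩ := key c X h y hy
    obtain ⟨x', hx', -, e'⟩ := key c X' h' y hy
    rw [← huniq y x x' hx hx'] at e'
    exact Nat.modEq_iff_dvd.1 ((e i).trans (e' i).symm)

end Vale.Agent.P345
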