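import Vale.Agent.P345.Pow
import Vale.Agent.P345.BallCore

/-!
Single-fold Diophantine predicates are closed under bounded universal quantification.
-/

namespace Vale.Agent.P345

open Sum

theorem isPoly_cong {γ : Type} {p : (γ → ℕ) → ℤ} (hp : IsPoly p) (r : ℕ) (w w' : γ → ℕ)
    (h : ∀ i, w i ≡ w' i [MOD r]) : p w ≡ p w' [ZMOD r] := by
  induction hp with
  | proj i => exact Int.natCast_modEq_iff.2 (h i)
  | const n => rfl
  | sub _ _ h1 h2 => exact h1.sub h2
  | mul _ _ h1 h2 => exact h1.mul h2

theorem isPoly_bound {γ : Type} {p : (γ → ℕ) → ℤ} (hp : IsPoly p) :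
    ∃ q : (γ → ℕ) → ℕ, (IsPoly fun w => (q w : ℤ)) ∧
      ∀ w w', (∀ i, w i ≤ w' i) → (p w).natAbs ≤ q w' := by
  induction hp with
  | proj i => exact ⟨fun w => w i, IsPoly.proj i, fun w w' h => by simpa using h i⟩
  | const n => exact ⟨fun _ => n.natAbs, IsPoly.const _, fun _ _ _ => le_rfl⟩
  | sub _ _ h1 h2 =>
    obtain ⟨q1, a1, b1⟩ := h1
    obtain ⟨q2, a2, b2⟩ := h2
    refine ⟨fun w => q1 w + q2 w, by simpa using isPoly_add a1 a2, fun w w' h => ?_⟩
    exact (Int.natAbs_sub_le _ _).trans (add_le_add (b1 w w' h) (b2 w w' h))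
  | mul _ _ h1 h2 =>
    obtain ⟨q1, a1, b1⟩ := h1
    obtain ⟨q2, a2, b2⟩ := h2
    refine ⟨fun w => q1 w * q2 w, by simpa using a1.mul a2, fun w w' h => ?_⟩
    rw [Int.natAbs_mul]
    exact Nat.mul_le_mul (b1 w w' h) (b2 w w' h)

theorem SF.ball {α : Type} [Finite α] {R : (α → ℕ) → ℕ → Prop}
    (h : SF fun w : Option α → ℕ => R (fun i => w (some i)) (w none))
    {f : (α → ℕ) → ℕ} (hf : SFn f) : SF fun v => ∀ y < f v, R v y := by
  obtain ⟨β, hβ, p, hp, H⟩ := h
  have := Fintype.ofFinite β
  obtain ⟨q, hq, hq'⟩ := isPoly_bound hp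
  let P : (α → ℕ) → ℕ → (β → ℕ) → ℤ := fun v y x => p (fun o => o.elim y v) x
  let L : (α → ℕ) → ℕ → ℕ := fun v c =>
    q (Sum.elim (fun o => o.elim (f v) v) fun _ => c) + f v + c + 3
  have core := fun v => ball_core (P v) (f v) (L v)
    (fun r y y' x x' h1 h2 => isPoly_cong hp r (Sum.elim (fun o => o.elim y v) x)
      (Sum.elim (fun o => o.elim y' v) x') (by
        rintro ((_ | i) | j)
        · exact h1
        · exact Nat.ModEq.refl _
        · exact h2 j))
    (fun y => (H _).2)
    (fun c => ⟨by simp only [L]; omega, by simp only [L]; omega, by simp only [L]; omega,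
      fun y hy x hx => by
        have := hq' (Sum.elim (fun o => o.elim y v) x)
          (Sum.elim (fun o => o.elim (f v) v) fun _ => c) (by
            rintro ((_ | i) | j)
            · exact hy.le
            · exact le_rfl
            · exact hx j)
        exact le_trans this (by simp only [L]; omega)⟩)
  have h1 : SF fun w : Option α ⊕ β → ℕ =>
      BPhi (P fun i => w (inl (some i))) (f fun i => w (inl (some i)))
        (L (fun i => w (inl (some i))) (w (inl none))) (w (inl none)) fun j => w (inr j) := by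
    have sf : SFn fun w : Option α ⊕ β → ℕ => f fun i => w (inl (some i)) :=
      hf.reindex fun i => inl (some i)
    have sL : SFn fun w : Option α ⊕ β → ℕ => L (fun i => w (inl (some i))) (w (inl none)) := by
      refine (((SFn.subst (SFn.of_poly hq) ?_).add sf).add (SFn.proj _)).add (SFn.const 3)
      rintro ((_ | i) | j)
      · exact sf
      · exact SFn.proj _
      · exact SFn.proj _
    have sQ := (sL.factorial.pow_const 2).sub (SFn.const 1)
    have sM := sQ.choose sf
    have sP : SFn fun w : Option α ⊕ β → ℕ => (P (fun i => w (inl (some i)))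
        ((L (fun i => w (inl (some i))) (w (inl none))).factorial ^ 2 - 1)
          fun j => w (inr j)).natAbs := by
      refine SFn.subst (SFn.natAbs_poly hp) (F := fun w : Option α ⊕ β → ℕ =>
        Sum.elim (fun o => o.elim
          ((L (fun i => w (inl (some i))) (w (inl none))).factorial ^ 2 - 1)
            fun i => w (inl (some i))) fun j => w (inr j)) ?_
      rintro ((_ | i) | j)
      · exact sQ
      · exact SFn.proj _
      · exact SFn.proj _
    refine (SF.forall_fin fun i => SF.lt (SFn.proj _) sM).and ((SF.dvd sM sP).and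
      ((SF.forall_fin fun i => SF.dvd sM
        ((SFn.proj _).descFactorial ((SFn.proj _).add (SFn.const 1)))).and
      ((SF.eq (SFn.proj _) (SFn.const 0)).or ((SF.lt (SFn.const 0) (SFn.proj _)).and
        (SF.ne (sM.gcd (SFn.prod_finset _ fun i =>
          (SFn.proj _).add ((sM.sub (SFn.const 1)).mul (SFn.proj _)))) (SFn.const 1)))
        fun v => by omega)))
  have h2 := SF.exV (R := fun (w : Option α → ℕ) (X : β → ℕ) =>
    BPhi (P fun i => w (some i)) (f fun i => w (some i)) (L (fun i => w (some i)) (w none))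
      (w none) X) h1 fun w X X' a b => ((core _).2 _ _ _ _ a b).2
  have h3 := SF.exU (R := fun (v : α → ℕ) (c : ℕ) => ∃ X, BPhi (P v) (f v) (L v c) c X) h2
    fun v c c' ⟨X, a⟩ ⟨X', b⟩ => ((core v).2 _ _ _ _ a b).1
  refine h3.congr fun v => (core v).1.symm.trans ?_
  exact forall₂_congr fun y _ => (H fun o => o.elim y v).1.symm

end Vale.Agent.P345
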