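import Mathlib

/-!
Single-fold Diophantine predicates and functions: basic closure properties.
-/

namespace Vale.Agent.P345

open Sum

/-- `p` is a polynomial function of its two vector arguments. -/
def P2 {α β : Type} (p : (α → ℕ) → (β → ℕ) → ℤ) : Prop :=
  IsPoly fun w : α ⊕ β → ℕ => p (fun i => w (inl i)) (fun j => w (inr j))

/-- Single-fold Diophantine predicate. -/
def SF {α : Type} (S : (α → ℕ) → Prop) : Prop :=
  ∃ (β : Type) (_ : Finite β) (p : (α → ℕ) → (β → ℕ) → ℤ), P2 p ∧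
    ∀ v, (S v ↔ ∃ t, p v t = 0) ∧ ∀ t t', p v t = 0 → p v t' = 0 → t = t'

/-- Function with single-fold Diophantine graph. -/
def SFn {α : Type} (f : (α → ℕ) → ℕ) : Prop :=
  SF fun v : Option α → ℕ => f (fun i => v (some i)) = v none

variable {α β γ : Type}

theorem isPoly_subst {p : (α → ℕ) → ℤ} (hp : IsPoly p) (g : (γ → ℕ) → α → ℕ)
    (hg : ∀ i, IsPoly fun w => (g w i : ℤ)) : IsPoly fun w => p (g w) := by
  induction hp with
  | proj i => exact hg i
  | const n => exact IsPoly.const n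
  | sub _ _ h1 h2 => exact h1.sub h2
  | mul _ _ h1 h2 => exact h1.mul h2

theorem isPoly_add {f g : (α → ℕ) → ℤ} (hf : IsPoly f) (hg : IsPoly g) :
    IsPoly fun v => f v + g v := hf.add hg

theorem isPoly_sum {ι : Type} (s : Finset ι) {f : ι → (α → ℕ) → ℤ} (hf : ∀ i, IsPoly (f i)) :
    IsPoly fun v => ∑ i ∈ s, f i v := by
  classical
  induction s using Finset.induction_on with
  | empty => simpa using IsPoly.const 0
  | insert a s ha ih =>
    simp only [Finset.sum_insert ha]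
    exact isPoly_add (hf a) ih

theorem P2.subst {p : (α → ℕ) → (β → ℕ) → ℤ} (hp : P2 p) (f : (γ → ℕ) → α → ℕ)
    (g : (γ → ℕ) → β → ℕ) (hf : ∀ i, IsPoly fun w => (f w i : ℤ))
    (hg : ∀ j, IsPoly fun w => (g w j : ℤ)) : IsPoly fun w => p (f w) (g w) := by
  have := isPoly_subst hp (fun w => Sum.elim (f w) (g w)) (by
    rintro (i | j)
    · exact hf i
    · exact hg j)
  exact this

theorem SF.congr {S T : (α → ℕ) → Prop} (h : SF S) (e : ∀ v, S v ↔ T v) : SF T := by
  have : S = T := funext fun v => propext (e v)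
  exact this ▸ h

theorem SFn.congr {f g : (α → ℕ) → ℕ} (h : SFn f) (e : ∀ v, f v = g v) : SFn g := by
  have : f = g := funext e
  exact this ▸ h

theorem SF.of_poly {p : (α → ℕ) → ℤ} (hp : IsPoly p) : SF fun v => p v = 0 := by
  refine ⟨Empty, inferInstance, fun v _ => p v, ?_, fun v => ⟨?_, ?_⟩⟩
  · exact isPoly_subst hp _ fun i => IsPoly.proj _
  · exact ⟨fun h => ⟨fun e => e.elim, h⟩, fun ⟨_, h⟩ => h⟩
  · intro t t' _ _
    exact funext fun e => e.elim

theorem SF.reindex {S : (α → ℕ) → Prop} (h : SF S) (f : α → γ) :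
    SF fun v : γ → ℕ => S fun i => v (f i) := by
  obtain ⟨β, hβ, p, hp, H⟩ := h
  refine ⟨β, hβ, fun v t => p (fun i => v (f i)) t, ?_, fun v => H _⟩
  exact hp.subst _ _ (fun i => IsPoly.proj _) (fun j => IsPoly.proj _)

theorem SF.and {S T : (α → ℕ) → Prop} (hS : SF S) (hT : SF T) : SF fun v => S v ∧ T v := by
  obtain ⟨β, hβ, p, hp, H⟩ := hS
  obtain ⟨γ, hγ, q, hq, K⟩ := hT
  have key : ∀ a b : ℤ, a * a + b * b = 0 ↔ a = 0 ∧ b = 0 := fun a b =>
    mul_self_add_mul_self_eq_zero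
  refine ⟨β ⊕ γ, inferInstance, fun v t =>
    p v (fun j => t (inl j)) * p v (fun j => t (inl j)) +
      q v (fun j => t (inr j)) * q v (fun j => t (inr j)), ?_, fun v => ⟨?_, ?_⟩⟩
  · have h1 := hp.subst (γ := α ⊕ (β ⊕ γ)) (fun w i => w (inl i)) (fun w j => w (inr (inl j)))
      (fun i => IsPoly.proj _) (fun j => IsPoly.proj _)
    have h2 := hq.subst (γ := α ⊕ (β ⊕ γ)) (fun w i => w (inl i)) (fun w j => w (inr (inr j)))
      (fun i => IsPoly.proj _) (fun j => IsPoly.proj _)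
    exact isPoly_add (h1.mul h1) (h2.mul h2)
  · simp only [key]
    constructor
    · rintro ⟨h1, h2⟩
      obtain ⟨t, ht⟩ := (H v).1.1 h1
      obtain ⟨s, hs⟩ := (K v).1.1 h2
      exact ⟨Sum.elim t s, ht, hs⟩
    · rintro ⟨t, h1, h2⟩
      exact ⟨(H v).1.2 ⟨_, h1⟩, (K v).1.2 ⟨_, h2⟩⟩
  · simp only [key]
    rintro t t' ⟨h1, h2⟩ ⟨h3, h4⟩
    have e1 := (H v).2 _ _ h1 h3
    have e2 := (K v).2 _ _ h2 h4
    funext x
    rcases x with j | j
    · exact congrFun e1 j
    · exact congrFun e2 j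

/-- Disjoint union. -/
theorem SF.or {S T : (α → ℕ) → Prop} (hS : SF S) (hT : SF T) (hd : ∀ v, S v → T v → False) :
    SF fun v => S v ∨ T v := by
  obtain ⟨β, hβ, p, hp, H⟩ := hS
  obtain ⟨γ, hγ, q, hq, K⟩ := hT
  have := Fintype.ofFinite β
  have := Fintype.ofFinite γ
  have key : ∀ {δ : Type} [Fintype δ] (a : ℤ) (t : δ → ℕ),
      a * a + ∑ j, (t j : ℤ) = 0 ↔ a = 0 ∧ ∀ j, t j = 0 := by
    intro δ _ a t
    have h0 : 0 ≤ ∑ j, (t j : ℤ) := Finset.sum_nonneg fun j _ => Int.natCast_nonneg _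
    rw [add_eq_zero_iff_of_nonneg (mul_self_nonneg a) h0, mul_self_eq_zero,
      Finset.sum_eq_zero_iff_of_nonneg fun j _ => Int.natCast_nonneg _]
    simp
  refine ⟨β ⊕ γ, inferInstance, fun v t =>
    (p v (fun j => t (inl j)) * p v (fun j => t (inl j)) + ∑ j, (t (inr j) : ℤ)) *
      (q v (fun j => t (inr j)) * q v (fun j => t (inr j)) + ∑ j, (t (inl j) : ℤ)),
      ?_, fun v => ⟨?_, ?_⟩⟩
  · have h1 := hp.subst (γ := α ⊕ (β ⊕ γ)) (fun w i => w (inl i)) (fun w j => w (inr (inl j)))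
      (fun i => IsPoly.proj _) (fun j => IsPoly.proj _)
    have h2 := hq.subst (γ := α ⊕ (β ⊕ γ)) (fun w i => w (inl i)) (fun w j => w (inr (inr j)))
      (fun i => IsPoly.proj _) (fun j => IsPoly.proj _)
    exact (isPoly_add (h1.mul h1) (isPoly_sum _ fun j => IsPoly.proj _)).mul
      (isPoly_add (h2.mul h2) (isPoly_sum _ fun j => IsPoly.proj _))
  · simp only [mul_eq_zero, key]
    constructor
    · rintro (h1 | h2)
      · obtain ⟨t, ht⟩ := (H v).1.1 h1
        exact ⟨Sum.elim t fun _ => 0, Or.inl ⟨ht, fun _ => rfl⟩⟩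
      · obtain ⟨s, hs⟩ := (K v).1.1 h2
        exact ⟨Sum.elim (fun _ => 0) s, Or.inr ⟨hs, fun _ => rfl⟩⟩
    · rintro ⟨t, h1 | h2⟩
      · exact Or.inl ((H v).1.2 ⟨_, h1.1⟩)
      · exact Or.inr ((K v).1.2 ⟨_, h2.1⟩)
  · simp only [mul_eq_zero, key]
    rintro t t' (h1 | h1) (h2 | h2)
    · have e1 := (H v).2 _ _ h1.1 h2.1
      funext x
      rcases x with j | j
      · exact congrFun e1 j
      · rw [h1.2 j, h2.2 j]
    · exact (hd v ((H v).1.2 ⟨_, h1.1⟩) ((K v).1.2 ⟨_, h2.1⟩)).elim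
    · exact (hd v ((H v).1.2 ⟨_, h2.1⟩) ((K v).1.2 ⟨_, h1.1⟩)).elim
    · have e1 := (K v).2 _ _ h1.1 h2.1
      funext x
      rcases x with j | j
      · rw [h1.2 j, h2.2 j]
      · exact congrFun e1 j

/-- Unique vector existential quantifier. -/
theorem SF.exV [Finite γ] {R : (α → ℕ) → (γ → ℕ) → Prop}
    (h : SF fun w : α ⊕ γ → ℕ => R (fun i => w (inl i)) (fun j => w (inr j)))
    (hu : ∀ v x y, R v x → R v y → x = y) : SF fun v => ∃ x, R v x := by
  obtain ⟨β, hβ, p, hp, H⟩ := h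
  refine ⟨γ ⊕ β, inferInstance, fun v t =>
    p (Sum.elim v fun j => t (inl j)) (fun j => t (inr j)), ?_, fun v => ⟨?_, ?_⟩⟩
  · refine hp.subst (γ := α ⊕ (γ ⊕ β)) _ _ ?_ (fun j => IsPoly.proj _)
    rintro (i | j)
    · exact IsPoly.proj _
    · exact IsPoly.proj _
  · constructor
    · rintro ⟨x, hx⟩
      obtain ⟨t, ht⟩ := (H (Sum.elim v x)).1.1 hx
      exact ⟨Sum.elim x t, ht⟩
    · rintro ⟨t, ht⟩
      exact ⟨_, (H _).1.2 ⟨_, ht⟩⟩
  · intro t t' h1 h2
    have e1 : (fun j => t (inl j)) = fun j => t' (inl j) :=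
      hu v _ _ ((H _).1.2 ⟨_, h1⟩) ((H _).1.2 ⟨_, h2⟩)
    simp only [e1] at h1
    have e2 := (H _).2 _ _ h1 h2
    funext x
    rcases x with j | j
    · exact congrFun e1 j
    · exact congrFun e2 j

/-- Unique existential quantifier. -/
theorem SF.exU {R : (α → ℕ) → ℕ → Prop}
    (h : SF fun w : Option α → ℕ => R (fun i => w (some i)) (w none))
    (hu : ∀ v x y, R v x → R v y → x = y) : SF fun v => ∃ x, R v x := by
  have h1 := h.reindex (γ := α ⊕ Unit) fun o => o.elim (inr ()) inl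
  have h2 := SF.exV (γ := Unit) (R := fun v x => R v (x ())) h1
    fun v x y hx hy => funext fun _ => hu v _ _ hx hy
  exact h2.congr fun v => ⟨fun ⟨x, hx⟩ => ⟨_, hx⟩, fun ⟨x, hx⟩ => ⟨fun _ => x, hx⟩⟩

theorem SF.true : SF fun _ : α → ℕ => True :=
  (SF.of_poly (IsPoly.const 0)).congr fun _ => by simp

theorem SF.forall_finset {ι : Type} (s : Finset ι) {S : ι → (α → ℕ) → Prop}
    (h : ∀ i, SF (S i)) : SF fun v => ∀ i ∈ s, S i v := by
  classical
  induction s using Finset.induction_on with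
  | empty => exact SF.true.congr fun _ => by simp
  | insert a s ha ih => exact ((h a).and ih).congr fun _ => by simp

theorem SF.forall_fin {ι : Type} [Finite ι] {S : ι → (α → ℕ) → Prop}
    (h : ∀ i, SF (S i)) : SF fun v => ∀ i, S i v := by
  have := Fintype.ofFinite ι
  exact (SF.forall_finset Finset.univ h).congr fun _ => by simp

theorem SFn.reindex {f : (α → ℕ) → ℕ} (h : SFn f) (g : α → γ) :
    SFn fun v : γ → ℕ => f fun i => v (g i) :=
  SF.reindex h (Option.map g)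

/-- Substitution of single-fold functions into a single-fold predicate. -/
theorem SF.subst [Finite β] {R : (β → ℕ) → Prop} (hR : SF R) {F : (α → ℕ) → β → ℕ}
    (hF : ∀ b, SFn fun v => F v b) : SF fun v => R (F v) := by
  have h1 : SF fun w : α ⊕ β → ℕ =>
      R (fun j => w (inr j)) ∧ ∀ b, F (fun i => w (inl i)) b = w (inr b) :=
    (hR.reindex inr).and (SF.forall_fin fun b =>
      SF.reindex (hF b) (γ := α ⊕ β) fun o => o.elim (inr b) inl)
  have h2 := SF.exV (R := fun v x => R x ∧ ∀ b, F v b = x b) h1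
    fun v x y hx hy => funext fun b => (hx.2 b).symm.trans (hy.2 b)
  refine h2.congr fun v => ⟨fun ⟨x, hx, hy⟩ => ?_, fun h => ⟨_, h, fun _ => rfl⟩⟩
  rwa [show F v = x from funext hy]

theorem SFn.natAbs_poly {p : (α → ℕ) → ℤ} (hp : IsPoly p) : SFn fun v => (p v).natAbs := by
  have h1 : IsPoly fun w : Option α → ℕ => p fun i => w (some i) :=
    isPoly_subst hp _ fun i => IsPoly.proj _
  have h2 : IsPoly fun w : Option α → ℕ => (w none : ℤ) := IsPoly.proj _
  exact (SF.of_poly ((h1.sub h2).mul (isPoly_add h1 h2))).congr fun v =>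
    Int.natAbs_eq_iff_mul_eq_zero.symm

theorem SFn.of_poly {f : (α → ℕ) → ℕ} (hp : IsPoly fun v => (f v : ℤ)) : SFn f :=
  (SFn.natAbs_poly hp).congr fun _ => by simp

theorem SFn.proj (i : α) : SFn fun v : α → ℕ => v i := SFn.of_poly (IsPoly.proj i)

theorem SFn.const (n : ℕ) : SFn fun _ : α → ℕ => n := SFn.of_poly (IsPoly.const n)

theorem SFn.subst [Finite β] {f : (β → ℕ) → ℕ} (hf : SFn f) {F : (α → ℕ) → β → ℕ}
    (hF : ∀ b, SFn fun v => F v b) : SFn fun v => f (F v) := by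
  refine SF.subst (R := fun w : Option β → ℕ => f (fun i => w (some i)) = w none) hf
    (F := fun (v : Option α → ℕ) o => o.elim (v none) (F fun i => v (some i))) ?_
  rintro (_ | b)
  · exact SFn.proj none
  · exact (hF b).reindex some

theorem SF.comp₁ {R : ℕ → Prop} (hR : SF fun v : Fin 1 → ℕ => R (v 0))
    {f : (α → ℕ) → ℕ} (hf : SFn f) : SF fun v => R (f v) :=
  hR.subst (F := fun v _ => f v) fun _ => hf

theorem SF.comp₂ {R : ℕ → ℕ → Prop} (hR : SF fun v : Fin 2 → ℕ => R (v 0) (v 1))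
    {f g : (α → ℕ) → ℕ} (hf : SFn f) (hg : SFn g) : SF fun v => R (f v) (g v) :=
  hR.subst (F := fun v => ![f v, g v]) fun b => by
    fin_cases b
    · exact hf
    · exact hg

theorem SF.comp₃ {R : ℕ → ℕ → ℕ → Prop} (hR : SF fun v : Fin 3 → ℕ => R (v 0) (v 1) (v 2))
    {f g h : (α → ℕ) → ℕ} (hf : SFn f) (hg : SFn g) (hh : SFn h) :
    SF fun v => R (f v) (g v) (h v) :=
  hR.subst (F := fun v => ![f v, g v, h v]) fun b => by
    fin_cases b
    · exact hf
    · exact hg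
    · exact hh

theorem SFn.comp₁ {F : ℕ → ℕ} (hF : SFn fun v : Fin 1 → ℕ => F (v 0))
    {f : (α → ℕ) → ℕ} (hf : SFn f) : SFn fun v => F (f v) :=
  hF.subst (F := fun v _ => f v) fun _ => hf

theorem SFn.comp₂ {F : ℕ → ℕ → ℕ} (hF : SFn fun v : Fin 2 → ℕ => F (v 0) (v 1))
    {f g : (α → ℕ) → ℕ} (hf : SFn f) (hg : SFn g) : SFn fun v => F (f v) (g v) :=
  hF.subst (F := fun v => ![f v, g v]) fun b => by
    fin_cases b
    · exact hf
    · exact hg

section
variable {f g : (α → ℕ) → ℕ}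

theorem SFn.add (hf : SFn f) (hg : SFn g) : SFn fun v => f v + g v :=
  SFn.comp₂ (F := fun a b => a + b)
    (SFn.of_poly (by
      simpa using isPoly_add (IsPoly.proj (0 : Fin 2)) (IsPoly.proj (1 : Fin 2)))) hf hg

theorem SFn.mul (hf : SFn f) (hg : SFn g) : SFn fun v => f v * g v :=
  SFn.comp₂ (F := fun a b => a * b)
    (SFn.of_poly (by
      simpa using (IsPoly.proj (0 : Fin 2)).mul (IsPoly.proj (1 : Fin 2)))) hf hg

theorem SF.eq (hf : SFn f) (hg : SFn g) : SF fun v => f v = g v :=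
  SF.comp₂ (R := fun a b => a = b)
    ((SF.of_poly ((IsPoly.proj (0 : Fin 2)).sub (IsPoly.proj (1 : Fin 2)))).congr fun v => by
      omega) hf hg

theorem SF.le (hf : SFn f) (hg : SFn g) : SF fun v => f v ≤ g v := by
  refine SF.comp₂ (R := fun a b => a ≤ b) ?_ hf hg
  refine (SF.exU (R := fun (v : Fin 2 → ℕ) x => v 0 + x = v 1)
    (SF.eq ((SFn.proj _).add (SFn.proj _)) (SFn.proj _)) fun v x y hx hy => by omega).congr
    fun v => ⟨fun ⟨_, h⟩ => by omega, fun h => ⟨v 1 - v 0, by omega⟩⟩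

theorem SF.lt (hf : SFn f) (hg : SFn g) : SF fun v => f v < g v :=
  SF.le (hf.add (SFn.const 1)) hg

theorem SF.ne (hf : SFn f) (hg : SFn g) : SF fun v => f v ≠ g v :=
  ((SF.lt hf hg).or (SF.lt hg hf) fun v => by omega).congr fun v => by omega

theorem SFn.sub (hf : SFn f) (hg : SFn g) : SFn fun v => f v - g v := by
  refine SFn.comp₂ (F := fun a b => a - b) ?_ hf hg
  have : SF fun v : Option (Fin 2) → ℕ => v (some 0) = v none + v (some 1) ∨
      (v (some 0) < v (some 1) ∧ v none = 0) :=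
    (SF.eq (SFn.proj _) ((SFn.proj _).add (SFn.proj _))).or
      ((SF.lt (SFn.proj _) (SFn.proj _)).and (SF.eq (SFn.proj _) (SFn.const _))) fun v => by omega
  exact this.congr fun v => by
    beta_reduce
    omega

theorem SFn.div (hf : SFn f) (hg : SFn g) : SFn fun v => f v / g v := by
  refine SFn.comp₂ (F := fun a b => a / b) ?_ hf hg
  have : SF fun v : Option (Fin 2) → ℕ => (v (some 1) = 0 ∧ v none = 0) ∨
      (v none * v (some 1) ≤ v (some 0) ∧ v (some 0) < (v none + 1) * v (some 1)) :=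
    ((SF.eq (SFn.proj _) (SFn.const _)).and (SF.eq (SFn.proj _) (SFn.const _))).or
      ((SF.le ((SFn.proj _).mul (SFn.proj _)) (SFn.proj _)).and
        (SF.lt (SFn.proj _) (((SFn.proj _).add (SFn.const _)).mul (SFn.proj _)))) fun v => by
          rintro ⟨h, -⟩ ⟨-, h'⟩
          simp [h] at h'
  refine this.congr fun v => ?_
  beta_reduce
  generalize v (some 0) = x, v (some 1) = y, v none = z
  rcases y.eq_zero_or_pos with rfl | hy
  · simp [eq_comm]
  · rw [Nat.div_eq_iff hy, Nat.succ_mul]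
    omega

theorem SFn.mod (hf : SFn f) (hg : SFn g) : SFn fun v => f v % g v :=
  (hf.sub (hg.mul (hf.div hg))).congr fun _ => (Nat.mod_def _ _).symm

theorem SF.dvd (hf : SFn f) (hg : SFn g) : SF fun v => f v ∣ g v :=
  (SF.eq (hg.mod hf) (SFn.const 0)).congr fun _ => (Nat.dvd_iff_mod_eq_zero ..).symm

theorem SFn.pow_const (hf : SFn f) (n : ℕ) : SFn fun v => f v ^ n := by
  induction n with
  | zero => exact (SFn.const 1).congr fun _ => by simp
  | succ n ih => exact (ih.mul hf).congr fun _ => by rw [pow_succ]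

theorem SF.coprime (hf : SFn f) (hg : SFn g) : SF fun v => Nat.Coprime (f v) (g v) := by
  refine SF.comp₂ (R := fun a b => Nat.Coprime a b) ?_ hf hg
  have key : ∀ x y s t : ℕ, s < y ∧ (s * x) % y = 1 % y → t < y ∧ (t * x) % y = 1 % y → s = t := by
    rintro x y s t ⟨hs, hs'⟩ ⟨ht, ht'⟩
    have h1 : s * x ≡ 1 [MOD y] := hs'
    have h2 : t * x ≡ 1 [MOD y] := ht'
    have h3 : s ≡ t [MOD y] := by
      calc s = s * 1 := (mul_one s).symm
        _ ≡ s * (t * x) [MOD y] := (h2.symm.mul_left s)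
        _ = t * (s * x) := by ring
        _ ≡ t * 1 [MOD y] := h1.mul_left t
        _ = t := mul_one t
    exact Nat.ModEq.eq_of_lt_of_lt h3 hs ht
  have : SF fun v : Fin 2 → ℕ => (v 1 = 0 ∧ v 0 = 1) ∨
      ∃ s, s < v 1 ∧ (s * v 0) % v 1 = 1 % v 1 :=
    ((SF.eq (SFn.proj _) (SFn.const _)).and (SF.eq (SFn.proj _) (SFn.const _))).or
      (SF.exU ((SF.lt (SFn.proj _) (SFn.proj _)).and
        (SF.eq (((SFn.proj _).mul (SFn.proj _)).mod (SFn.proj _))
          ((SFn.const 1).mod (SFn.proj _)))) fun v s t => key _ _ s t) fun v => by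
        rintro ⟨h, -⟩ ⟨s, hs, -⟩
        omega
  refine this.congr fun v => ?_
  generalize v 0 = x, v 1 = y
  rcases y.eq_zero_or_pos with rfl | hy
  · simp
  · constructor
    · rintro (⟨h, -⟩ | ⟨s, -, hs⟩)
      · omega
      · have h1 : s * x ≡ 1 [MOD y] := hs
        exact Nat.Coprime.coprime_dvd_left (Dvd.intro_left s rfl)
          (Nat.coprime_of_mul_modEq_one 1 (by simpa using h1))
    · intro h
      right
      obtain ⟨m, hm⟩ := Nat.exists_mul_mod_eq_of_coprime 1 h hy.ne'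
      exact ⟨m, hm.1, by rw [mul_comm]; exact hm.2⟩

theorem SFn.gcd (hf : SFn f) (hg : SFn g) : SFn fun v => Nat.gcd (f v) (g v) := by
  refine SFn.comp₂ (F := fun a b => Nat.gcd a b) ?_ hf hg
  have : SF fun v : Option (Fin 2) → ℕ => (v none = 0 ∧ v (some 0) = 0 ∧ v (some 1) = 0) ∨
      (0 < v none ∧ v none ∣ v (some 0) ∧ v none ∣ v (some 1) ∧
        Nat.Coprime (v (some 0) / v none) (v (some 1) / v none)) :=
    ((SF.eq (SFn.proj _) (SFn.const _)).and ((SF.eq (SFn.proj _) (SFn.const _)).and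
      (SF.eq (SFn.proj _) (SFn.const _)))).or
      ((SF.lt (SFn.const _) (SFn.proj _)).and ((SF.dvd (SFn.proj _) (SFn.proj _)).and
        ((SF.dvd (SFn.proj _) (SFn.proj _)).and
          (SF.coprime ((SFn.proj _).div (SFn.proj _)) ((SFn.proj _).div (SFn.proj _))))))
      fun v => by omega
  refine this.congr fun v => ?_
  beta_reduce
  generalize v (some 0) = x, v (some 1) = y, v none = z
  constructor
  · rintro (⟨rfl, rfl, rfl⟩ | ⟨hz, ⟨a, rfl⟩, ⟨b, rfl⟩, h⟩)
    · simp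
    · rw [Nat.mul_div_cancel_left _ hz, Nat.mul_div_cancel_left _ hz] at h
      rw [Nat.gcd_mul_left, h.gcd_eq_one, mul_one]
  · rintro rfl
    rcases (Nat.gcd x y).eq_zero_or_pos with h | h
    · exact Or.inl ⟨h, Nat.gcd_eq_zero_iff.1 h⟩
    · exact Or.inr ⟨h, Nat.gcd_dvd_left _ _, Nat.gcd_dvd_right _ _,
        Nat.coprime_div_gcd_div_gcd h⟩

theorem SFn.pair (hf : SFn f) (hg : SFn g) : SFn fun v => Nat.pair (f v) (g v) := by
  refine SFn.comp₂ (F := fun a b => Nat.pair a b) ?_ hf hg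
  have : SF fun v : Option (Fin 2) → ℕ =>
      (v (some 0) < v (some 1) ∧ v (some 1) * v (some 1) + v (some 0) = v none) ∨
      (v (some 1) ≤ v (some 0) ∧ v (some 0) * v (some 0) + v (some 0) + v (some 1) = v none) :=
    ((SF.lt (SFn.proj _) (SFn.proj _)).and
      (SF.eq (((SFn.proj _).mul (SFn.proj _)).add (SFn.proj _)) (SFn.proj _))).or
      ((SF.le (SFn.proj _) (SFn.proj _)).and
      (SF.eq ((((SFn.proj _).mul (SFn.proj _)).add (SFn.proj _)).add (SFn.proj _)) (SFn.proj _)))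
      fun v => by omega
  refine this.congr fun v => ?_
  beta_reduce
  generalize v (some 0) = x, v (some 1) = y, v none = z
  unfold Nat.pair
  split_ifs with h
  · simp [h, not_le.2 h]
  · simp [h, not_lt.1 h]

theorem SFn.unpair_fst (hf : SFn f) : SFn fun v => (Nat.unpair (f v)).1 := by
  refine SFn.comp₁ (F := fun a => (Nat.unpair a).1) ?_ hf
  have : SF fun v : Option (Fin 1) → ℕ => ∃ y, Nat.pair (v none) y = v (some 0) :=
    SF.exU (SF.eq ((SFn.proj _).pair (SFn.proj _)) (SFn.proj _)) fun v x y hx hy =>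
      (Nat.pair_eq_pair.1 (hx.trans hy.symm)).2
  refine this.congr fun v => ⟨fun ⟨y, h⟩ => by simp [← h], fun h => ⟨(v (some 0)).unpair.2, ?_⟩⟩
  rw [← h, Nat.pair_unpair]

theorem SFn.unpair_snd (hf : SFn f) : SFn fun v => (Nat.unpair (f v)).2 := by
  refine SFn.comp₁ (F := fun a => (Nat.unpair a).2) ?_ hf
  have : SF fun v : Option (Fin 1) → ℕ => ∃ y, Nat.pair y (v none) = v (some 0) :=
    SF.exU (SF.eq ((SFn.proj _).pair (SFn.proj _)) (SFn.proj _)) fun v x y hx hy =>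
      (Nat.pair_eq_pair.1 (hx.trans hy.symm)).1
  refine this.congr fun v => ⟨fun ⟨y, h⟩ => by simp [← h], fun h => ⟨(v (some 0)).unpair.1, ?_⟩⟩
  rw [← h, Nat.pair_unpair]

theorem SFn.prod_finset {ι : Type} (s : Finset ι) {F : ι → (α → ℕ) → ℕ} (h : ∀ i, SFn (F i)) :
    SFn fun v => ∏ i ∈ s, F i v := by
  classical
  induction s using Finset.induction_on with
  | empty => exact (SFn.const 1).congr fun _ => by simp
  | insert a s ha ih => exact ((h a).mul ih).congr fun _ => by rw [Finset.prod_insert ha]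

end

end Vale.Agent.P345
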