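import Mathlib

/-!
Abstract canonical height (Tate's limit) and an abstract descent.
-/

namespace Vale.Agent.P345

open Filter Topology

theorem exists_canonical {G : Type} [AddCommGroup G] (h : G → ℝ) (C : ℝ) (h0 : h 0 = 0)
    (hlow : ∀ P, 4 * h P - C ≤ h (P + P))
    (hpar : ∀ P Q, h (P + Q) + h (P - Q) ≤ 2 * h P + 2 * h Q + C) :
    ∃ q : G → ℝ, (∀ P, |q P - h P| ≤ C / 3) ∧
      ∀ P Q, q (P + Q) + q (P - Q) = 2 * q P + 2 * q Q := by
  let a : G → ℕ → ℝ := fun P n => h ((2 ^ n : ℕ) • P) / 4 ^ n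
  have two : ∀ (P : G) (n : ℕ), (2 ^ (n + 1) : ℕ) • P = (2 ^ n : ℕ) • P + (2 ^ n : ℕ) • P := by
    intro P n
    rw [pow_succ, mul_two, add_nsmul]
  have step : ∀ P n, dist (a P n) (a P (n + 1)) ≤ C / 4 * (1 / 4) ^ n := by
    intro P n
    have h1 := hlow ((2 ^ n : ℕ) • P)
    have h2 := hpar ((2 ^ n : ℕ) • P) ((2 ^ n : ℕ) • P)
    rw [sub_self, h0] at h2
    have hp : (0 : ℝ) < 4 ^ n := by positivity
    simp only [a, Real.dist_eq, two]
    have : h ((2 ^ n : ℕ) • P) / 4 ^ n - h ((2 ^ n : ℕ) • P + (2 ^ n : ℕ) • P) / 4 ^ (n + 1) =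
        (4 * h ((2 ^ n : ℕ) • P) - h ((2 ^ n : ℕ) • P + (2 ^ n : ℕ) • P)) / (4 * 4 ^ n) := by
      field_simp
      ring
    rw [this, abs_div, abs_of_pos (by positivity : (0 : ℝ) < 4 * 4 ^ n), one_div, inv_pow,
      div_le_iff₀ (by positivity)]
    have : C / 4 * (4 ^ n)⁻¹ * (4 * 4 ^ n) = C := by field_simp
    rw [this, abs_le]
    constructor <;> linarith
  have cau : ∀ P, ∃ l, Tendsto (a P) atTop (𝓝 l) := fun P =>
    cauchySeq_tendsto_of_complete (cauchySeq_of_le_geometric (1 / 4) (C / 4) (by norm_num) (step P))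
  choose q hq using cau
  have dbl : ∀ P, q (P + P) = 4 * q P := by
    intro P
    have h1 : Tendsto (fun n => 4 * a P (n + 1)) atTop (𝓝 (4 * q P)) :=
      ((hq P).comp (tendsto_add_atTop_nat 1)).const_mul 4
    have h2 : a (P + P) = fun n => 4 * a P (n + 1) := by
      funext n
      simp only [a, two, smul_add]
      field_simp
      ring
    exact tendsto_nhds_unique (hq (P + P)) (h2 ▸ h1)
  have par : ∀ P Q, q (P + Q) + q (P - Q) ≤ 2 * q P + 2 * q Q := by
    intro P Q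
    have h1 : Tendsto (fun n => a (P + Q) n + a (P - Q) n) atTop (𝓝 (q (P + Q) + q (P - Q))) :=
      (hq _).add (hq _)
    have h3 : Tendsto (fun n : ℕ => C * (1 / 4 : ℝ) ^ n) atTop (𝓝 (C * 0)) :=
      (tendsto_pow_atTop_nhds_zero_of_lt_one (by norm_num) (by norm_num)).const_mul C
    have h2 : Tendsto (fun n => 2 * a P n + 2 * a Q n + C * (1 / 4 : ℝ) ^ n) atTop
        (𝓝 (2 * q P + 2 * q Q + C * 0)) :=
      (((hq _).const_mul 2).add ((hq _).const_mul 2)).add h3
    have := le_of_tendsto_of_tendsto' h1 h2 fun n => by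
      have hp : (0 : ℝ) < 4 ^ n := by positivity
      have := hpar ((2 ^ n : ℕ) • P) ((2 ^ n : ℕ) • Q)
      simp only [a, smul_add, smul_sub, one_div, inv_pow]
      rw [← sub_nonneg]
      have e : 2 * (h ((2 ^ n : ℕ) • P) / 4 ^ n) + 2 * (h ((2 ^ n : ℕ) • Q) / 4 ^ n) +
          C * (4 ^ n)⁻¹ - (h ((2 ^ n : ℕ) • P + (2 ^ n : ℕ) • Q) / 4 ^ n +
            h ((2 ^ n : ℕ) • P - (2 ^ n : ℕ) • Q) / 4 ^ n) =
          (2 * h ((2 ^ n : ℕ) • P) + 2 * h ((2 ^ n : ℕ) • Q) + C -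
            (h ((2 ^ n : ℕ) • P + (2 ^ n : ℕ) • Q) +
              h ((2 ^ n : ℕ) • P - (2 ^ n : ℕ) • Q))) / 4 ^ n := by
        field_simp
      rw [e]
      exact div_nonneg (by linarith) hp.le
    simpa using this
  refine ⟨q, fun P => ?_, fun P Q => le_antisymm (par P Q) ?_⟩
  · have := dist_le_of_le_geometric_of_tendsto₀ (1 / 4) (C / 4) (by norm_num) (step P) (hq P)
    simp only [a, pow_zero, one_smul, div_one, Real.dist_eq] at this
    rw [abs_sub_comm]
    convert this using 1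
    ring
  · have := par (P + Q) (P - Q)
    rw [show P + Q + (P - Q) = P + P by abel, show P + Q - (P - Q) = Q + Q by abel, dbl, dbl]
      at this
    linarith

theorem quad_zsmul {G : Type} [AddCommGroup G] {q : G → ℝ}
    (hq : ∀ P Q, q (P + Q) + q (P - Q) = 2 * q P + 2 * q Q) (P : G) (j : ℤ) :
    q (j • P) = (j : ℝ) ^ 2 * q P := by
  have q0 : q 0 = 0 := by
    have := hq 0 0
    simp at this
    linarith
  have qn : ∀ Q, q (-Q) = q Q := by
    intro Q
    have := hq 0 Q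
    simp [q0] at this
    linarith
  have nat : ∀ n : ℕ, q ((n : ℤ) • P) = (n : ℝ) ^ 2 * q P ∧
      q (((n + 1 : ℕ) : ℤ) • P) = ((n + 1 : ℕ) : ℝ) ^ 2 * q P := by
    intro n
    induction n with
    | zero => simp [q0]
    | succ n ih =>
      refine ⟨ih.2, ?_⟩
      have := hq (((n + 1 : ℕ) : ℤ) • P) P
      rw [show ((n + 1 : ℕ) : ℤ) • P + P = ((n + 1 + 1 : ℕ) : ℤ) • P by push_cast; module,
        show ((n + 1 : ℕ) : ℤ) • P - P = ((n : ℕ) : ℤ) • P by push_cast; module, ih.1, ih.2] at this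
      push_cast at this ⊢
      linarith
  rcases Int.eq_nat_or_neg j with ⟨n, rfl | rfl⟩
  · simpa using (nat n).1
  · rw [neg_smul, qn]
    simpa using (nat n).1

theorem descent {G : Type} [AddCommGroup G] {q : G → ℝ}
    (hq : ∀ P Q, q (P + Q) + q (P - Q) = 2 * q P + 2 * q Q) (P₀ : G) (δ : ℝ) (hδ : 0 < δ)
    (hlow : ∀ Q, Q ≠ 0 → δ ≤ q Q) (hP : q P₀ < 3 * δ)
    (hhalf : ∀ Q, (∃ R, Q = R + R) ∨ ((∃ R, Q + P₀ = R + R) ∧ ∃ R, Q - P₀ = R + R)) (Q : G) :
    ∃ j : ℤ, Q = j • P₀ := by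
  have q0 : q 0 = 0 := by
    have := hq 0 0
    simp at this
    linarith
  have qnn : ∀ Q, 0 ≤ q Q := fun Q => by
    by_cases h : Q = 0
    · rw [h, q0]
    · linarith [hlow Q h]
  have dbl : ∀ R, q (R + R) = 4 * q R := fun R => by
    have := hq R R
    rw [sub_self, q0] at this
    linarith
  set ε := 3 * δ - q P₀ with hε
  have εpos : 0 < ε := by linarith
  have main : ∀ N : ℕ, ∀ Q, q Q < δ + N * ε → ∃ j : ℤ, Q = j • P₀ := by
    intro N
    induction N with
    | zero =>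
      intro Q h
      by_cases hQ : Q = 0
      · exact ⟨0, by simp [hQ]⟩
      · have := hlow Q hQ
        simp at h
        linarith
    | succ N ih =>
      intro Q h
      push_cast at h
      have hN : (0 : ℝ) ≤ N * ε := by positivity
      have := qnn P₀
      rcases hhalf Q with ⟨R, hR⟩ | ⟨⟨R, hR⟩, ⟨S, hS⟩⟩
      · obtain ⟨j, hj⟩ := ih R (by
          have := dbl R
          rw [← hR] at this
          nlinarith)
        exact ⟨j + j, by rw [hR, hj, add_smul]⟩
      · have h1 := dbl R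
        have h2 := dbl S
        have h3 := hq Q P₀
        rw [hR, hS, h1, h2] at h3
        rcases le_total (q R) (q S) with hle | hle
        · obtain ⟨j, hj⟩ := ih R (by nlinarith)
          exact ⟨j + j - 1, by rw [sub_smul, add_smul, ← hj, ← hR]; simp⟩
        · obtain ⟨j, hj⟩ := ih S (by nlinarith)
          exact ⟨j + j + 1, by rw [add_smul, add_smul, ← hj, ← hS]; simp⟩
  obtain ⟨N, hN⟩ := exists_nat_gt (q Q / ε)
  refine main N Q ?_
  rw [div_lt_iff₀ εpos] at hN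
  linarith

end Vale.Agent.P345
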