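import Vale.Agent.P345.RatArith
import Vale.Agent.P345.Canon

/-!
The elliptic curve `y ^ 2 = x ^ 3 - 2 * x`: the points with `x > 0` form an infinite cyclic group.
-/

namespace Vale.Agent.P345

open WeierstrassCurve WeierstrassCurve.Affine

/-- The curve `y ^ 2 = x ^ 3 - 2 * x`. -/
def EW : WeierstrassCurve.Affine ℚ := ⟨0, 0, 0, -2, 0⟩

theorem EW_nonsingular {x y : ℚ} : EW.Nonsingular x y ↔ y ^ 2 = x ^ 3 - 2 * x := by
  rw [← EW.equation_iff_nonsingular_of_Δ_ne_zero, EW.equation_iff]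
  · simp only [EW]
    constructor <;> intro h <;> linarith
  · simp only [EW, WeierstrassCurve.Δ, WeierstrassCurve.b₂, WeierstrassCurve.b₄,
      WeierstrassCurve.b₆, WeierstrassCurve.b₈]
    norm_num

/-- The `x`-coordinate, with value `1` at infinity. -/
def xc : EW.Point → ℚ
  | .zero => 1
  | .some x _ _ => x

@[simp] theorem xc_zero : xc 0 = 1 := rfl

@[simp] theorem xc_some {x y : ℚ} (h : EW.Nonsingular x y) : xc (.some x y h) = x := rfl

theorem xc_neg (P : EW.Point) : xc (-P) = xc P := by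
  rcases P with _ | ⟨x, y, h⟩
  · rfl
  · rfl

theorem negY_EW (x y : ℚ) : EW.negY x y = -y := by simp [EW]

theorem add_ne {x₁ y₁ x₂ y₂ : ℚ} (h₁ : EW.Nonsingular x₁ y₁) (h₂ : EW.Nonsingular x₂ y₂)
    (hx : x₁ ≠ x₂) :
    xc (Point.some x₁ y₁ h₁ + Point.some x₂ y₂ h₂) = ((y₁ - y₂) / (x₁ - x₂)) ^ 2 - x₁ - x₂ ∧
      Point.some x₁ y₁ h₁ + Point.some x₂ y₂ h₂ ≠ 0 := by
  rw [Point.add_of_X_ne hx]
  refine ⟨?_, Point.some_ne_zero _⟩
  rw [xc_some, slope_of_X_ne hx]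
  simp [EW]

theorem sub_ne {x₁ y₁ x₂ y₂ : ℚ} (h₁ : EW.Nonsingular x₁ y₁) (h₂ : EW.Nonsingular x₂ y₂)
    (hx : x₁ ≠ x₂) :
    xc (Point.some x₁ y₁ h₁ - Point.some x₂ y₂ h₂) = ((y₁ + y₂) / (x₁ - x₂)) ^ 2 - x₁ - x₂ ∧
      Point.some x₁ y₁ h₁ - Point.some x₂ y₂ h₂ ≠ 0 := by
  rw [sub_eq_add_neg, Point.neg_some]
  have := add_ne h₁ ((nonsingular_neg ..).mpr h₂) hx
  refine ⟨?_, this.2⟩
  rw [this.1, negY_EW, sub_neg_eq_add]

theorem add_self {x y : ℚ} (h : EW.Nonsingular x y) (hy : y ≠ 0) :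
    xc (Point.some x y h + Point.some x y h) = ((x ^ 2 + 2) / (2 * y)) ^ 2 ∧
      Point.some x y h + Point.some x y h ≠ 0 := by
  have hy' : y ≠ EW.negY x y := by
    rw [negY_EW]
    intro h
    exact hy (by linarith)
  rw [Point.add_self_of_Y_ne hy']
  refine ⟨?_, Point.some_ne_zero _⟩
  rw [xc_some, slope_of_Y_ne rfl hy', negY_EW]
  have e := EW_nonsingular.1 h
  simp only [EW, addX]
  have : y - -y = 2 * y := by ring
  rw [this]
  field_simp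
  linear_combination (-8 * x) * e

theorem sum_prod {x₁ y₁ x₂ y₂ : ℚ} (e₁ : y₁ ^ 2 = x₁ ^ 3 - 2 * x₁) (e₂ : y₂ ^ 2 = x₂ ^ 3 - 2 * x₂)
    (hx : x₁ ≠ x₂) :
    (x₁ - x₂) ^ 2 * ((((y₁ - y₂) / (x₁ - x₂)) ^ 2 - x₁ - x₂) *
      (((y₁ + y₂) / (x₁ - x₂)) ^ 2 - x₁ - x₂)) = (x₁ * x₂ + 2) ^ 2 ∧
    (x₁ - x₂) ^ 2 * ((((y₁ - y₂) / (x₁ - x₂)) ^ 2 - x₁ - x₂) +
      (((y₁ + y₂) / (x₁ - x₂)) ^ 2 - x₁ - x₂)) = 2 * (x₁ * x₂ - 2) * (x₁ + x₂) ∧
    x₁ * x₂ * (((y₁ - y₂) / (x₁ - x₂)) ^ 2 - x₁ - x₂) = ((x₁ * y₂ - x₂ * y₁) / (x₁ - x₂)) ^ 2 := by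
  have hd : x₁ - x₂ ≠ 0 := sub_ne_zero.2 hx
  have k1 : ((y₁ - y₂) / (x₁ - x₂)) ^ 2 - x₁ - x₂ =
      ((x₁ * x₂ - 2) * (x₁ + x₂) - 2 * y₁ * y₂) / (x₁ - x₂) ^ 2 := by
    field_simp
    linear_combination e₁ + e₂
  have k2 : ((y₁ + y₂) / (x₁ - x₂)) ^ 2 - x₁ - x₂ =
      ((x₁ * x₂ - 2) * (x₁ + x₂) + 2 * y₁ * y₂) / (x₁ - x₂) ^ 2 := by
    field_simp
    linear_combination e₁ + e₂
  rw [k1, k2]
  refine ⟨?_, ?_, ?_⟩
  · field_simp
    linear_combination (-4 * y₂ ^ 2) * e₁ - 4 * (x₁ ^ 3 - 2 * x₁) * e₂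
  · field_simp
    ring
  · field_simp
    linear_combination (-x₂ ^ 2) * e₁ - x₁ ^ 2 * e₂

theorem pos_add {x₁ y₁ x₂ y₂ : ℚ} (e₁ : y₁ ^ 2 = x₁ ^ 3 - 2 * x₁) (e₂ : y₂ ^ 2 = x₂ ^ 3 - 2 * x₂)
    (hx : x₁ ≠ x₂) (p₁ : 0 < x₁) (p₂ : 0 < x₂) : 0 < ((y₁ - y₂) / (x₁ - x₂)) ^ 2 - x₁ - x₂ := by
  obtain ⟨k1, -, k3⟩ := sum_prod e₁ e₂ hx
  set u := ((y₁ - y₂) / (x₁ - x₂)) ^ 2 - x₁ - x₂
  have h12 : 0 < x₁ * x₂ := mul_pos p₁ p₂
  have h0 : 0 ≤ u := by
    have : 0 ≤ x₁ * x₂ * u := by rw [k3]; positivity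
    exact nonneg_of_mul_nonneg_right this h12 |> fun h => h
  refine h0.lt_of_ne fun h => ?_
  rw [← h] at k1
  have : 0 < (x₁ * x₂ + 2) ^ 2 := by positivity
  simp at k1
  linarith

/-- Case analysis for two points with the same `x`-coordinate. -/
theorem same_x {x y₁ y₂ : ℚ} (h₁ : EW.Nonsingular x y₁) (h₂ : EW.Nonsingular x y₂) :
    Point.some x y₁ h₁ = Point.some x y₂ h₂ ∨ Point.some x y₁ h₁ = -Point.some x y₂ h₂ :=
  Point.X_eq_iff.1 rfl

/-- The identity component. -/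
def G0 : AddSubgroup EW.Point where
  carrier := {P | 0 < xc P}
  zero_mem' := by simp
  neg_mem' := by
    intro P hP
    simpa [xc_neg] using hP
  add_mem' := by
    rintro (_ | ⟨x₁, y₁, h₁⟩) Q hP hQ
    · change 0 < xc (0 + Q)
      rwa [zero_add]
    rcases Q with _ | ⟨x₂, y₂, h₂⟩
    · change 0 < xc (_ + 0)
      rwa [add_zero]
    simp only [Set.mem_ofPred_eq, xc_some] at hP hQ ⊢
    by_cases hx : x₁ = x₂
    · subst hx
      rcases same_x h₁ h₂ with h | h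
      · have hy := curve_y_ne hP (EW_nonsingular.1 h₁)
        rw [← h, (add_self h₁ hy).1]
        positivity
      · rw [h, neg_add_cancel]
        simp
    · rw [(add_ne h₁ h₂ hx).1]
      exact pos_add (EW_nonsingular.1 h₁) (EW_nonsingular.1 h₂) hx hP hQ

theorem mem_G0 {P : EW.Point} : P ∈ G0 ↔ 0 < xc P := Iff.rfl

/-- The naive logarithmic height on the identity component. -/
noncomputable def ht (P : G0) : ℝ := Real.log ((xc P.1).num : ℝ)

theorem ht_zero : ht 0 = 0 := by simp [ht]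

theorem ht_neg (P : G0) : ht (-P) = ht P := by simp [ht, xc_neg]

theorem num_pos' (P : G0) : (0 : ℝ) < ((xc P.1).num : ℝ) := by
  have : 0 < (xc P.1).num := Rat.num_pos.2 P.2
  exact_mod_cast this

theorem log_four_nonneg : 0 ≤ Real.log 4 := Real.log_nonneg (by norm_num)

theorem ht_double (P : G0) :
    4 * ht P - Real.log 4 ≤ ht (P + P) ∧ ht (P + P) ≤ 4 * ht P + Real.log 4 := by
  have hpos := num_pos' P
  have hpos2 := num_pos' (P + P)
  obtain ⟨_ | ⟨x, y, h⟩, hP⟩ := P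
  · have := log_four_nonneg
    change 4 * ht 0 - Real.log 4 ≤ ht (0 + 0) ∧ ht (0 + 0) ≤ 4 * ht 0 + Real.log 4
    rw [add_zero, ht_zero]
    constructor <;> linarith
  · have hx : 0 < x := hP
    have e := EW_nonsingular.1 h
    obtain ⟨k1, k2⟩ := num_double hx e
    simp only [ht, AddSubgroup.coe_add, (add_self h (curve_y_ne hx e)).1, xc_some] at hpos hpos2 ⊢
    set u := (((x ^ 2 + 2) / (2 * y)) ^ 2).num
    have k1' : (x.num : ℝ) ^ 4 ≤ 4 * u := by exact_mod_cast k1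
    have k2' : (u : ℝ) ≤ 4 * (x.num : ℝ) ^ 4 := by exact_mod_cast k2
    have l1 := Real.log_le_log (by positivity) k1'
    have l2 := Real.log_le_log hpos2 k2'
    rw [Real.log_mul (by norm_num) hpos2.ne', Real.log_pow] at l1
    rw [Real.log_mul (by norm_num) (by positivity), Real.log_pow] at l2
    push_cast at l1 l2
    constructor <;> linarith

theorem ht_par (P Q : G0) : ht (P + Q) + ht (P - Q) ≤ 2 * ht P + 2 * ht Q + Real.log 4 := by
  have l4 := log_four_nonneg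
  by_cases hP : P = 0
  · subst hP
    rw [zero_add, zero_sub, ht_neg, ht_zero]
    linarith
  by_cases hQ : Q = 0
  · subst hQ
    rw [add_zero, sub_zero, ht_zero]
    linarith
  by_cases h1 : P = Q
  · subst h1
    rw [sub_self, ht_zero]
    linarith [(ht_double P).2]
  by_cases h2 : P = -Q
  · have : Q = -P := by rw [h2, neg_neg]
    subst this
    rw [add_neg_cancel, sub_neg_eq_add, ht_zero, ht_neg]
    linarith [(ht_double P).2]
  have p1 := num_pos' P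
  have p2 := num_pos' Q
  have p3 := num_pos' (P + Q)
  have p4 := num_pos' (P - Q)
  have m3 := (P + Q).2
  have m4 := (P - Q).2
  obtain ⟨_ | ⟨x₁, y₁, h₁⟩, hP'⟩ := P
  · exact (hP rfl).elim
  obtain ⟨_ | ⟨x₂, y₂, h₂⟩, hQ'⟩ := Q
  · exact (hQ rfl).elim
  have hx : x₁ ≠ x₂ := by
    rintro rfl
    rcases same_x h₁ h₂ with h | h
    · exact h1 (Subtype.ext h)
    · exact h2 (Subtype.ext h)
  have e₁ := EW_nonsingular.1 h₁
  have e₂ := EW_nonsingular.1 h₂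
  have x1 : 0 < x₁ := hP'
  have x2 : 0 < x₂ := hQ'
  obtain ⟨k1, k2, -⟩ := sum_prod e₁ e₂ hx
  simp only [ht, mem_G0, AddSubgroup.coe_add, AddSubgroup.coe_sub, (add_ne h₁ h₂ hx).1,
    (sub_ne h₁ h₂ hx).1, xc_some] at p1 p2 p3 p4 m3 m4 ⊢
  have k := num_add_sub x1 x2 (curve_sq_gt x1 e₁) (curve_sq_gt x2 e₂) m3 m4 k1 k2
  set u := (((y₁ - y₂) / (x₁ - x₂)) ^ 2 - x₁ - x₂).num
  set v := (((y₁ + y₂) / (x₁ - x₂)) ^ 2 - x₁ - x₂).num
  have k' : (u : ℝ) * v ≤ 4 * ((x₁.num : ℝ) * x₂.num) ^ 2 := by exact_mod_cast k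
  have l := Real.log_le_log (by positivity) k'
  rw [Real.log_mul p3.ne' p4.ne', Real.log_mul (by norm_num) (by positivity), Real.log_pow,
    Real.log_mul p1.ne' p2.ne'] at l
  push_cast at l
  linarith

theorem ht_ge (P : G0) (hP : P ≠ 0) : Real.log 2 ≤ ht P := by
  obtain ⟨_ | ⟨x, y, h⟩, hP'⟩ := P
  · exact (hP rfl).elim
  have hx : 0 < x := hP'
  have := two_le_num hx (curve_sq_gt hx (EW_nonsingular.1 h))
  exact Real.log_le_log (by norm_num) (by simp only [xc_some]; exact_mod_cast this)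

/-- A point whose `x`-coordinate is a square is a double. -/
theorem half_of_isSquare (Q : G0) (hs : IsSquare (xc Q.1)) : ∃ R, Q = R + R := by
  obtain ⟨_ | ⟨x, y, h⟩, hQ⟩ := Q
  · exact ⟨0, by rw [add_zero]; rfl⟩
  have hx : 0 < x := hQ
  have e := EW_nonsingular.1 h
  obtain ⟨u₀, hu₀⟩ := hs
  rw [xc_some] at hu₀
  obtain ⟨u, hu, rfl⟩ : ∃ u : ℚ, 0 < u ∧ x = u ^ 2 := by
    refine ⟨|u₀|, abs_pos.2 ?_, by rw [sq_abs, sq, hu₀]⟩
    rintro rfl
    simp at hu₀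
    exact hx.ne' hu₀
  set v := y / u with hv
  have ev : v ^ 2 = u ^ 4 - 2 := by
    rw [hv]
    field_simp
    linear_combination e
  have Xp : 0 < 2 * (u ^ 2 + v) := by nlinarith [sq_nonneg (u ^ 2 + v), sq_nonneg (u ^ 2 - v)]
  obtain ⟨w, hw, ew⟩ : ∃ w : ℚ, 0 < w ∧ w ^ 4 + 8 = 4 * u ^ 2 * w ^ 2 := by
    have hb : ∀ p : ℕ, p.Prime → (p : ℤ) ∣ 8 → p = 2 := fun p pp hp =>
      (Nat.prime_dvd_prime_iff_eq pp Nat.prime_two).1
        (pp.dvd_of_dvd_pow (n := 3) (by exact_mod_cast hp))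
    have := isSquare_or (X := 2 * (u ^ 2 + v)) (Y := 2 * u * (2 * (u ^ 2 + v))) hb Xp (by
      push_cast
      linear_combination (-8 * (u ^ 2 + v)) * ev)
    rcases this with ⟨w, hw⟩ | ⟨w, hw⟩
    · have w0 : w ≠ 0 := by
        rintro rfl
        simp only [mul_zero] at hw
        exact Xp.ne' hw
      refine ⟨|w|, abs_pos.2 w0, ?_⟩
      have : |w| ^ 2 = 2 * (u ^ 2 + v) := by rw [sq_abs, sq, hw]
      rw [show |w| ^ 4 = (|w| ^ 2) ^ 2 by ring, this]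
      linear_combination 4 * ev
    · have w0 : w ≠ 0 := by
        rintro rfl
        simp only [mul_zero] at hw
        linarith
      refine ⟨4 / |w|, by positivity, ?_⟩
      have h2 : w ^ 2 = 4 * (u ^ 2 + v) := by rw [sq, ← hw]; ring
      have : (4 / |w|) ^ 2 = 2 * (u ^ 2 - v) := by
        rw [div_pow, sq_abs, h2, div_eq_iff (by linarith)]
        linear_combination 8 * ev
      rw [show (4 / |w|) ^ 4 = ((4 / |w|) ^ 2) ^ 2 by ring, this]
      linear_combination 4 * ev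
  set r := (w ^ 2 + 2 * u * w) / 2 with hr
  have rpos : 0 < r := by positivity
  have er : r ^ 2 - w ^ 2 * r - 2 = 0 := by
    rw [hr]
    linear_combination (-1 / 4 : ℚ) * ew
  have hR : EW.Nonsingular r (w * r) := EW_nonsingular.2 (by linear_combination (-r) * er)
  have hwr : w * r ≠ 0 := by positivity
  have d := add_self hR hwr
  have ex : ((r ^ 2 + 2) / (2 * (w * r))) = u := by
    rw [div_eq_iff (by positivity)]
    have : 2 * r = w ^ 2 + 2 * u * w := by rw [hr]; ring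
    linear_combination (-1 : ℚ) * er + r * this
  rw [ex] at d
  have key : ∀ T : EW.Point, xc T = u ^ 2 → T ≠ 0 →
      Point.some (u ^ 2) y h = T ∨ Point.some (u ^ 2) y h = -T := by
    rintro (_ | ⟨x', y', h'⟩) hT hT'
    · exact (hT' rfl).elim
    · rw [xc_some] at hT
      subst hT
      exact same_x h h'
  rcases key _ d.1 d.2 with k | k
  · exact ⟨⟨Point.some r (w * r) hR, rpos⟩, Subtype.ext k⟩
  · refine ⟨-⟨Point.some r (w * r) hR, rpos⟩, Subtype.ext ?_⟩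
    simp only [AddSubgroup.coe_add, AddSubgroup.coe_neg]
    rw [k, neg_add]

theorem isSquare_add (P Q : G0) (hP : P ≠ 0) (hQ : Q ≠ 0) (sP : IsSquare (2 * xc P.1))
    (sQ : IsSquare (2 * xc Q.1)) : IsSquare (xc (P + Q).1) := by
  obtain ⟨_ | ⟨x₁, y₁, h₁⟩, hP'⟩ := P
  · exact (hP rfl).elim
  obtain ⟨_ | ⟨x₂, y₂, h₂⟩, hQ'⟩ := Q
  · exact (hQ rfl).elim
  have e₁ := EW_nonsingular.1 h₁
  have e₂ := EW_nonsingular.1 h₂
  have x1 : 0 < x₁ := hP'
  have x2 : 0 < x₂ := hQ'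
  simp only [AddSubgroup.coe_add, xc_some] at sP sQ ⊢
  by_cases hx : x₁ = x₂
  · subst hx
    rcases same_x h₁ h₂ with h | h
    · rw [← h, (add_self h₁ (curve_y_ne x1 e₁)).1]
      exact ⟨_, sq _⟩
    · rw [h, neg_add_cancel]
      exact ⟨1, by simp⟩
  · rw [(add_ne h₁ h₂ hx).1]
    obtain ⟨-, -, k⟩ := sum_prod e₁ e₂ hx
    obtain ⟨a, ha⟩ := sP
    obtain ⟨b, hb⟩ := sQ
    have a0 : a ≠ 0 := by
      rintro rfl
      linarith
    have b0 : b ≠ 0 := by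
      rintro rfl
      linarith
    set t := ((y₁ - y₂) / (x₁ - x₂)) ^ 2 - x₁ - x₂
    set ν := (x₁ * y₂ - x₂ * y₁) / (x₁ - x₂)
    refine ⟨2 * ν / (a * b), ?_⟩
    field_simp
    linear_combination 4 * k - (b ^ 2 * t) * ha - (2 * x₁ * t) * hb

theorem class_or (Q : G0) (hQ : Q ≠ 0) : IsSquare (xc Q.1) ∨ IsSquare (2 * xc Q.1) := by
  obtain ⟨_ | ⟨x, y, h⟩, hQ'⟩ := Q
  · exact (hQ rfl).elim
  have hb : ∀ p : ℕ, p.Prime → (p : ℤ) ∣ -2 → p = 2 := fun p pp hp =>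
    (Nat.prime_dvd_prime_iff_eq pp Nat.prime_two).1 (by exact_mod_cast (dvd_neg.1 hp))
  exact isSquare_or (Y := y) hb hQ' (by
    simp only [xc_some]
    push_cast
    linear_combination EW_nonsingular.1 h)

theorem P0_ns : EW.Nonsingular 2 2 := EW_nonsingular.2 (by norm_num)

/-- The generator `(2, 2)`. -/
def P0 : G0 := ⟨Point.some 2 2 P0_ns, by simp [mem_G0]⟩

theorem P0_ne : P0 ≠ 0 := fun h => Point.some_ne_zero P0_ns (congrArg Subtype.val h)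

theorem ht_P0_double : ht (P0 + P0) = Real.log 9 := by
  have := (add_self P0_ns (by norm_num)).1
  simp only [ht, P0, AddSubgroup.coe_add, this]
  norm_num

theorem halve (Q : G0) :
    (∃ R, Q = R + R) ∨ ((∃ R, Q + P0 = R + R) ∧ ∃ R, Q - P0 = R + R) := by
  by_cases hQ : Q = 0
  · exact Or.inl ⟨0, by simp [hQ]⟩
  rcases class_or Q hQ with h | h
  · exact Or.inl (half_of_isSquare Q h)
  · have s : IsSquare (2 * xc P0.1) := ⟨2, by simp [P0]⟩
    refine Or.inr ⟨half_of_isSquare _ (isSquare_add Q P0 hQ P0_ne h s), half_of_isSquare _ ?_⟩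
    rw [sub_eq_add_neg]
    exact isSquare_add Q (-P0) hQ (neg_ne_zero.2 P0_ne) h (by simpa [xc_neg] using s)

/-- The main facts on the sequence of `x`-coordinates of multiples of the generator. -/
theorem exists_seq : ∃ (X : ℤ → ℚ) (c κ : ℝ), 0 < c ∧ 0 ≤ κ ∧ (∀ j, 0 < X j) ∧
    (∀ j, X (-j) = X j) ∧
    (∀ x y : ℚ, 0 < x → y ^ 2 = x ^ 3 - 2 * x → ∃ j : ℤ, j ≠ 0 ∧ x = X j) ∧
    (∀ j, j ≠ 0 → ∃ y : ℚ, y ^ 2 = X j ^ 3 - 2 * X j) ∧
    (∀ j, |Real.log ((X j).num : ℝ) - c * (j : ℝ) ^ 2| ≤ κ) ∧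
    (∀ i j, i ≠ 0 → j ≠ 0 → i ≠ j → i ≠ -j → X i ≠ X j ∧
      (X i - X j) ^ 2 * (X (i + j) * X (i - j)) = (X i * X j + 2) ^ 2 ∧
      (X i - X j) ^ 2 * (X (i + j) + X (i - j)) = 2 * (X i * X j - 2) * (X i + X j)) := by
  obtain ⟨q, hq1, hq2⟩ := exists_canonical ht (Real.log 4) ht_zero (fun P => (ht_double P).1) ht_par
  have l2 : 0 < Real.log 2 := Real.log_pos (by norm_num)
  have l4 : Real.log 4 = 2 * Real.log 2 := by
    rw [show (4 : ℝ) = 2 ^ 2 by norm_num, Real.log_pow]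
    norm_num
  have low : ∀ Q, Q ≠ 0 → Real.log 2 / 3 ≤ q Q := fun Q hQ => by
    have := abs_le.1 (hq1 Q)
    have := ht_ge Q hQ
    linarith
  have hP : q P0 < 3 * (Real.log 2 / 3) := by
    have h1 := quad_zsmul hq2 P0 2
    rw [two_zsmul] at h1
    have h2 := abs_le.1 (hq1 (P0 + P0))
    rw [ht_P0_double] at h2
    have h3 : 3 * Real.log 9 < 10 * Real.log 2 := by
      have := Real.log_lt_log (show (0 : ℝ) < 9 ^ 3 by norm_num) (show (9 : ℝ) ^ 3 < 2 ^ 10 by norm_num)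
      rw [Real.log_pow, Real.log_pow] at this
      exact_mod_cast this
    push_cast at h1
    linarith
  have gen := descent hq2 P0 (Real.log 2 / 3) (by linarith) low hP halve
  have cpos : 0 < q P0 := by linarith [low P0 P0_ne]
  have nz : ∀ j : ℤ, j ≠ 0 → j • P0 ≠ 0 := fun j hj h => by
    have h1 := quad_zsmul hq2 P0 j
    have h2 := quad_zsmul hq2 P0 0
    rw [h] at h1
    rw [zero_smul] at h2
    have : (0 : ℝ) < (j : ℝ) ^ 2 := by positivity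
    have := mul_pos this cpos
    simp at h2
    linarith
  refine ⟨fun j => xc (j • P0).1, q P0, Real.log 4 / 3, cpos, by linarith, fun j => (j • P0).2,
    fun j => by simp [xc_neg], ?_, ?_, ?_, ?_⟩
  · intro x y hx e
    obtain ⟨j, hj⟩ := gen ⟨Point.some x y (EW_nonsingular.2 e), hx⟩
    refine ⟨j, ?_, by beta_reduce; rw [← hj]; rfl⟩
    rintro rfl
    rw [zero_smul] at hj
    exact Point.some_ne_zero _ (congrArg Subtype.val hj)
  · intro j hj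
    have := nz j hj
    beta_reduce
    generalize j • P0 = Q at this
    obtain ⟨_ | ⟨x, y, h⟩, hQ⟩ := Q
    · exact (this rfl).elim
    · exact ⟨y, EW_nonsingular.1 h⟩
  · intro j
    have h1 := hq1 (j • P0)
    rw [quad_zsmul hq2, abs_sub_comm, mul_comm] at h1
    exact h1
  · intro i j hi hj h1 h2
    have n1 := nz i hi
    have n2 := nz j hj
    have n3 := nz (i - j) (sub_ne_zero.2 h1)
    have n4 := nz (i + j) (fun h => h2 (by linarith))
    simp only [add_smul, sub_smul] at n3 n4 ⊢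
    generalize i • P0 = P at n1 n3 n4
    generalize j • P0 = Q at n2 n3 n4
    obtain ⟨_ | ⟨x₁, y₁, h₁⟩, hP'⟩ := P
    · exact (n1 rfl).elim
    obtain ⟨_ | ⟨x₂, y₂, h₂⟩, hQ'⟩ := Q
    · exact (n2 rfl).elim
    have hx : x₁ ≠ x₂ := by
      rintro rfl
      rcases same_x h₁ h₂ with h | h
      · exact n3 (sub_eq_zero.2 (Subtype.ext h))
      · exact n4 (add_eq_zero_iff_eq_neg.2 (Subtype.ext h))
    obtain ⟨k1, k2, -⟩ := sum_prod (EW_nonsingular.1 h₁) (EW_nonsingular.1 h₂) hx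
    simp only [AddSubgroup.coe_add, AddSubgroup.coe_sub, (add_ne h₁ h₂ hx).1,
      (sub_ne h₁ h₂ hx).1, xc_some]
    exact ⟨hx, k1, k2⟩

end Vale.Agent.P345
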