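import Vale.Agent.P345.Basic
import Vale.Agent.P345.Curve

/-!
A single-fold Diophantine relation of exponential growth.
-/

namespace Vale.Agent.P345

open Pell

theorem xn_le_pow {a : ℕ} (a1 : 1 < a) : ∀ m, xn a1 m ≤ (2 * a) ^ m
  | 0 => by simp
  | 1 => by rw [xn_one, pow_one]; omega
  | m + 2 => by
    have h1 := xn_succ_succ a1 m
    have h2 := xn_le_pow a1 (m + 1)
    calc xn a1 (m + 2) ≤ 2 * a * xn a1 (m + 1) := by omega
      _ ≤ 2 * a * (2 * a) ^ (m + 1) := Nat.mul_le_mul_left _ h2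
      _ = (2 * a) ^ (m + 2) := by ring

theorem pell_of_eq {a x y : ℕ} (a1 : 1 < a) (h : x ^ 2 + y ^ 2 = a ^ 2 * y ^ 2 + 1) :
    ∃ m, x = xn a1 m ∧ y = yn a1 m := by
  refine eq_pell a1 (show x * x - (a * a - 1) * y * y = 1 from ?_)
  obtain ⟨b, hb⟩ : ∃ b, a * a = b + 1 := ⟨a * a - 1, by have : 1 ≤ a * a := by nlinarith
                                                        omega⟩
  rw [hb, Nat.add_sub_cancel]
  have : x * x = b * y * y + 1 := by nlinarith
  omega

theorem pell_eq' {a : ℕ} (a1 : 1 < a) (m : ℕ) :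
    xn a1 m ^ 2 + yn a1 m ^ 2 = a ^ 2 * yn a1 m ^ 2 + 1 := by
  have h : xn a1 m * xn a1 m - (a * a - 1) * yn a1 m * yn a1 m = 1 := pell_eq a1 m
  obtain ⟨b, hb⟩ : ∃ b, a * a = b + 1 := ⟨a * a - 1, by have : 1 ≤ a * a := by nlinarith
                                                        omega⟩
  rw [hb, Nat.add_sub_cancel] at h
  have : xn a1 m * xn a1 m = b * yn a1 m * yn a1 m + 1 := by omega
  nlinarith

theorem xn_succ' {a : ℕ} (a1 : 1 < a) (m : ℕ) :
    xn a1 (m + 1) = xn a1 m * a + (a * a - 1) * yn a1 m := xn_succ a1 m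

/-- The defining system. -/
def Phi (s t e a₀ k a x n d z n₁ d₁ n₂ d₂ y : ℕ) : Prop :=
  0 < n ∧ 0 < d ∧ 0 < d₁ ∧ 0 < d₂ ∧ Nat.Coprime n d ∧ Nat.Coprime n₁ d₁ ∧ Nat.Coprime n₂ d₂ ∧
  d * n ^ 3 = z ^ 2 + 2 * d ^ 3 * n ∧
  ((n * t) ^ 2 + (s * d) ^ 2) * (n₁ * n₂) =
    (n * s + 2 * d * t) ^ 2 * (d₁ * d₂) + 2 * (n * t) * (s * d) * (n₁ * n₂) ∧
  ((n * t) ^ 2 + (s * d) ^ 2) * (n₁ * d₂ + n₂ * d₁) + 4 * d * t * (n * t + s * d) * (d₁ * d₂) =
    2 * n * s * (n * t + s * d) * (d₁ * d₂) + 2 * (n * t) * (s * d) * (n₁ * d₂ + n₂ * d₁) ∧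
  a = n₁ / n₂ ∧ a₀ ≤ a ∧ x ^ 2 + y ^ 2 = a ^ 2 * y ^ 2 + 1 ∧ x ^ 2 ≤ n ^ e * a ∧
  n ^ e * a < (x * a + (a * a - 1) * y) ^ 2 ∧ y % (a - 1) = k

theorem SF_Phi (s t e a₀ : ℕ) : SF fun v : Fin 3 ⊕ Fin 8 → ℕ =>
    Phi s t e a₀ (v (.inl 0)) (v (.inl 1)) (v (.inl 2)) (v (.inr 0)) (v (.inr 1)) (v (.inr 2))
      (v (.inr 3)) (v (.inr 4)) (v (.inr 5)) (v (.inr 6)) (v (.inr 7)) := by
  unfold Phi
  repeat' first
    | with_reducible exact SFn.proj _
    | with_reducible exact SFn.const _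
    | with_reducible apply SF.and
    | with_reducible apply SF.coprime
    | with_reducible apply SF.eq
    | with_reducible apply SF.lt
    | with_reducible apply SF.le
    | with_reducible apply SFn.add
    | with_reducible apply SFn.mul
    | with_reducible apply SFn.sub
    | with_reducible apply SFn.div
    | with_reducible apply SFn.mod
    | with_reducible apply SFn.pow_const

theorem log_div_bounds {p q : ℕ} (hq : 0 < q) (h : q ≤ p) :
    Real.log p - Real.log q - 1 ≤ Real.log ((p / q : ℕ) : ℝ) := by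
  have h1 : 1 ≤ p / q := (Nat.one_le_div_iff hq).2 h
  have h2 : p < q * (p / q + 1) := Nat.lt_mul_div_succ p hq
  have h3 : p ≤ q * (2 * (p / q)) := by nlinarith
  have hp : (0 : ℝ) < p := by exact_mod_cast lt_of_lt_of_le hq h
  have hq' : (0 : ℝ) < q := by exact_mod_cast hq
  have ha : (0 : ℝ) < ((p / q : ℕ) : ℝ) := by exact_mod_cast h1
  have h4 : (p : ℝ) ≤ q * (2 * ((p / q : ℕ) : ℝ)) := by exact_mod_cast h3
  have h5 := Real.log_le_log hp h4
  rw [Real.log_mul hq'.ne' (by positivity), Real.log_mul (by norm_num) ha.ne'] at h5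
  have := Real.log_two_lt_d9
  linarith

theorem log_div_le {p q : ℕ} (hq : 0 < q) (h : 0 < p / q) :
    Real.log ((p / q : ℕ) : ℝ) ≤ Real.log p - Real.log q := by
  have hq' : (0 : ℝ) < q := by exact_mod_cast hq
  have ha : (0 : ℝ) < ((p / q : ℕ) : ℝ) := by exact_mod_cast h
  have h3 : p / q * q ≤ p := Nat.div_mul_le_self p q
  have h4 : ((p / q : ℕ) : ℝ) * q ≤ p := by exact_mod_cast h3
  have h5 := Real.log_le_log (by positivity) h4
  rw [Real.log_mul ha.ne' hq'.ne'] at h5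
  linarith

/-- The analytic core. -/
theorem analytic {N : ℤ → ℕ} {c κ : ℝ} (hc : 0 < c) (hκ : 0 ≤ κ) (Npos : ∀ j, 0 < N j)
    (hN : ∀ j, |Real.log (N j) - c * (j : ℝ) ^ 2| ≤ κ) :
    ∃ l a₀ j₀ : ℕ, 0 < l ∧ l < j₀ ∧ 2 ≤ a₀ ∧
      (∀ j : ℤ, a₀ ≤ N (j + l) / N (j - l) → (j₀ : ℤ) ≤ j) ∧
      ∀ j : ℕ, j₀ ≤ j → 2 ^ j ≤ N (j + l) / N (j - l) ∧
        ∀ a1 : 1 < N (j + l) / N (j - l),
          xn a1 j ^ 2 ≤ N j ^ (8 * l) * (N (j + l) / N (j - l)) ∧
          N j ^ (8 * l) * (N (j + l) / N (j - l)) < xn a1 (j + 1) ^ 2 := by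
  obtain ⟨l, hl⟩ := exists_nat_gt ((4 * κ + 3) / (4 * c))
  rw [div_lt_iff₀ (by positivity)] at hl
  have lpos : 0 < l := by
    rcases l.eq_zero_or_pos with rfl | h
    · simp at hl
      linarith
    · exact h
  obtain ⟨j₀, hj₀⟩ := exists_nat_gt (8 * l * κ + 6 * κ + 3 + l)
  obtain ⟨a₀, ha₀⟩ := exists_nat_gt (Real.exp (4 * c * l * j₀ + 2 * κ) + 2)
  have lκ : (0 : ℝ) ≤ l * κ := by positivity
  have l0 : (0 : ℝ) ≤ l := by positivity
  have diff : ∀ j : ℤ, |Real.log (N (j + l)) - Real.log (N (j - l)) - 4 * c * l * j| ≤ 2 * κ := by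
    intro j
    have h1 := abs_le.1 (hN (j + l))
    have h2 := abs_le.1 (hN (j - l))
    push_cast at h1 h2
    rw [abs_le]
    constructor <;> nlinarith
  refine ⟨l, a₀, j₀, lpos, ?_, ?_, ?_, ?_⟩
  · have : (l : ℝ) < j₀ := by nlinarith
    exact_mod_cast this
  · have : (2 : ℝ) < a₀ := by linarith [Real.exp_pos (4 * c * l * j₀ + 2 * κ)]
    have : 2 < a₀ := by exact_mod_cast this
    omega
  · intro j hj
    have e0 := Real.exp_pos (4 * c * l * j₀ + 2 * κ)
    have a0pos : (0 : ℝ) < a₀ := by linarith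
    have h1 := log_div_le (Npos (j - l)) (lt_of_lt_of_le (by exact_mod_cast a0pos) hj)
    have h2 : 4 * c * l * j₀ + 2 * κ < Real.log a₀ := by
      rw [Real.lt_log_iff_exp_lt a0pos]
      linarith
    have h3 : Real.log a₀ ≤ Real.log ((N (j + l) / N (j - l) : ℕ) : ℝ) :=
      Real.log_le_log a0pos (by exact_mod_cast hj)
    have h4 := abs_le.1 (diff j)
    have h5 : 4 * c * l * (j₀ : ℝ) < 4 * c * l * j := by linarith
    have h6 : (j₀ : ℝ) < j := lt_of_mul_lt_mul_left h5 (by positivity)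
    have : (j₀ : ℤ) < j := by exact_mod_cast h6
    exact this.le
  · intro j hj
    have hj' : (j₀ : ℝ) ≤ j := by exact_mod_cast hj
    have h4 := abs_le.1 (diff j)
    have j1 : (3 : ℝ) ≤ j := by linarith
    have hlj : (4 * κ + 3) * j ≤ 4 * c * l * j := by nlinarith
    have κj : κ ≤ κ * j := by nlinarith
    push_cast at h4
    have hle : N (j - l) ≤ N (j + l) := by
      have : Real.log (N (j - l)) ≤ Real.log (N (j + l)) := by nlinarith
      rw [Real.log_le_log_iff (by exact_mod_cast Npos _) (by exact_mod_cast Npos _)] at this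
      exact_mod_cast this
    have b1 := log_div_bounds (Npos _) hle
    have apos : 0 < N (j + l) / N (j - l) := (Nat.one_le_div_iff (Npos _)).2 hle
    have b2 := log_div_le (Npos _) apos
    set a := N (j + l) / N (j - l) with ha
    have apos' : (0 : ℝ) < a := by exact_mod_cast apos
    have l2 := Real.log_two_lt_d9
    have l2' : 0 < Real.log 2 := Real.log_pos (by norm_num)
    constructor
    · have : Real.log ((2 : ℝ) ^ j) ≤ Real.log a := by
        rw [Real.log_pow]
        nlinarith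
      rw [Real.log_le_log_iff (by positivity) apos'] at this
      exact_mod_cast this
    · intro a1
      have hNj := abs_le.1 (hN j)
      push_cast at hNj
      have Nj : (0 : ℝ) < N j := by exact_mod_cast Npos j
      have lV : Real.log ((N j : ℝ) ^ (8 * l) * a) = 8 * l * Real.log (N j) + Real.log a := by
        rw [Real.log_mul (by positivity) apos'.ne', Real.log_pow]
        push_cast
        ring
      constructor
      · have h1 : xn a1 j ^ 2 ≤ ((2 * a) ^ j) ^ 2 := Nat.pow_le_pow_left (xn_le_pow a1 j) 2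
        refine h1.trans ?_
        have : Real.log (((2 * a : ℝ) ^ j) ^ 2) ≤ Real.log ((N j : ℝ) ^ (8 * l) * a) := by
          rw [lV, Real.log_pow, Real.log_pow, Real.log_mul (by norm_num) apos'.ne']
          push_cast
          have t1 : (j : ℝ) * (Real.log 2 + Real.log a) ≤ j * (4 * c * l * j + 2 * κ + 1) :=
            mul_le_mul_of_nonneg_left (by linarith) (by linarith)
          have t2 : (l : ℝ) * (c * j ^ 2 - κ) ≤ l * Real.log (N j) :=
            mul_le_mul_of_nonneg_left (by linarith) l0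
          nlinarith
        rw [Real.log_le_log_iff (by positivity) (by positivity)] at this
        exact_mod_cast this
      · have h1 : (a ^ (j + 1)) ^ 2 ≤ xn a1 (j + 1) ^ 2 :=
          Nat.pow_le_pow_left (xn_ge_a_pow a1 (j + 1)) 2
        refine lt_of_lt_of_le ?_ h1
        have : Real.log ((N j : ℝ) ^ (8 * l) * a) < Real.log (((a : ℝ) ^ (j + 1)) ^ 2) := by
          rw [lV, Real.log_pow, Real.log_pow]
          push_cast
          have t1 : ((j : ℝ) + 1) * (4 * c * l * j - 2 * κ - 1) ≤ (j + 1) * Real.log a :=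
            mul_le_mul_of_nonneg_left (by linarith) (by linarith)
          have t2 : (l : ℝ) * Real.log (N j) ≤ l * (c * j ^ 2 + κ) :=
            mul_le_mul_of_nonneg_left (by linarith) l0
          nlinarith
        rw [Real.log_lt_log_iff (by positivity) (by positivity)] at this
        exact_mod_cast this

theorem rat_repr {x : ℚ} (hx : 0 < x) : x = (x.num.toNat : ℚ) / x.den ∧ 0 < x.num.toNat ∧
    Nat.Coprime x.num.toNat x.den ∧ ((x.num.toNat : ℕ) : ℤ) = x.num := by
  have h : 0 < x.num := Rat.num_pos.2 hx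
  have e : ((x.num.toNat : ℕ) : ℤ) = x.num := Int.toNat_of_nonneg h.le
  refine ⟨?_, by omega, ?_, e⟩
  · have : ((x.num.toNat : ℕ) : ℚ) = (x.num : ℚ) := by exact_mod_cast e
    rw [this, Rat.num_div_den]
  · have := x.reduced
    rwa [show x.num.natAbs = x.num.toNat by omega] at this

theorem rat_unique {n d : ℕ} (hd : 0 < d) (h : Nat.Coprime n d) :
    ((n : ℚ) / d).num.toNat = n ∧ ((n : ℚ) / d).den = d := by
  have h1 := Rat.num_div_eq_of_coprime (a := n) (b := d) (by exact_mod_cast hd) (by simpa using h)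
  have h2 := Rat.den_div_eq_of_coprime (a := n) (b := d) (by exact_mod_cast hd) (by simpa using h)
  push_cast at h1 h2
  exact ⟨by rw [h1]; simp, by exact_mod_cast h2⟩

theorem exists_growth : ∃ (A : ℕ → ℕ) (k₀ : ℕ), (∀ k, k₀ ≤ k → 2 ^ k ≤ A k ∧ k + 2 ≤ A k) ∧
    SF fun v : Fin 3 → ℕ => k₀ ≤ v 0 ∧ v 1 = A (v 0) ∧ ∃ h : 1 < v 1, v 2 = xn h (v 0) := by
  obtain ⟨X, c, κ, hc, hκ, Xpos, Xneg, Xsurj, Xcurve, Xht, Xadd⟩ := exists_seq
  set N : ℤ → ℕ := fun j => (X j).num.toNat with hNdef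
  have Npos : ∀ j, 0 < N j := fun j => (rat_repr (Xpos j)).2.1
  have hN : ∀ j, |Real.log (N j) - c * (j : ℝ) ^ 2| ≤ κ := fun j => by
    have : ((N j : ℕ) : ℝ) = ((X j).num : ℝ) := by
      exact_mod_cast (rat_repr (Xpos j)).2.2.2
    rw [this]
    exact Xht j
  obtain ⟨l, a₀, j₀, lpos, lj, a2, H1, H2⟩ := analytic hc hκ Npos hN
  set A : ℕ → ℕ := fun j => N (j + l) / N (j - l) with hA
  have grow : ∀ k, j₀ ≤ k → 2 ^ k ≤ A k ∧ k + 2 ≤ A k := fun k hk => by
    refine ⟨(H2 k hk).1, le_trans ?_ (H2 k hk).1⟩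
    obtain ⟨m, rfl⟩ : ∃ m, k = m + 2 := ⟨k - 2, by omega⟩
    have := Nat.lt_two_pow_self (n := m)
    rw [pow_add]
    omega
  set s := N l
  set t := (X l).den
  have hst : X l = (s : ℚ) / t := (rat_repr (Xpos l)).1
  have tpos : (0 : ℚ) < t := by exact_mod_cast (X l).den_pos
  have spos : (0 : ℚ) < s := by exact_mod_cast Npos l
  -- soundness
  have sound : ∀ k a x n d z n₁ d₁ n₂ d₂ y, Phi s t (8 * l) a₀ k a x n d z n₁ d₁ n₂ d₂ y →
      a = A k ∧ n = N k ∧ d = (X k).den ∧ n₁ = N (k + l) ∧ d₁ = (X (k + l)).den ∧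
        n₂ = N (k - l) ∧ d₂ = (X (k - l)).den ∧ ∃ h : 1 < a, x = xn h k ∧ y = yn h k := by
    rintro k a x n d z n₁ d₁ n₂ d₂ y
      ⟨hn, hd, hd₁, hd₂, c0, c1, c2, e0, e1, e2, ea, ha, hp, i1, i2, hy⟩
    have hd' : (0 : ℚ) < d := by exact_mod_cast hd
    have hd₁' : (0 : ℚ) < d₁ := by exact_mod_cast hd₁
    have hd₂' : (0 : ℚ) < d₂ := by exact_mod_cast hd₂
    have hn' : (0 : ℚ) < n := by exact_mod_cast hn
    obtain ⟨j', hj', ej'⟩ := Xsurj ((n : ℚ) / d) (z / d ^ 2) (by positivity) (by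
      have : (d : ℚ) * n ^ 3 = z ^ 2 + 2 * d ^ 3 * n := by exact_mod_cast e0
      field_simp
      linear_combination -this)
    obtain ⟨j, jpos, ej⟩ : ∃ j : ℕ, 0 < j ∧ (n : ℚ) / d = X j := by
      rcases Int.eq_nat_or_neg j' with ⟨j, rfl | rfl⟩
      · exact ⟨j, by omega, ej'⟩
      · exact ⟨j, by omega, by rw [ej', Xneg]⟩
    set u := (n₁ : ℚ) / d₁ with hu
    set v := (n₂ : ℚ) / d₂ with hv
    have E1 : (X j - X l) ^ 2 * (u * v) = (X j * X l + 2) ^ 2 := by
      rw [← ej, hst, hu, hv]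
      have : (((n : ℚ) * t) ^ 2 + (s * d) ^ 2) * (n₁ * n₂) =
        (n * s + 2 * d * t) ^ 2 * (d₁ * d₂) + 2 * (n * t) * (s * d) * (n₁ * n₂) := by
          exact_mod_cast e1
      field_simp
      linear_combination this
    have E2 : (X j - X l) ^ 2 * (u + v) = 2 * (X j * X l - 2) * (X j + X l) := by
      rw [← ej, hst, hu, hv]
      have : (((n : ℚ) * t) ^ 2 + (s * d) ^ 2) * (n₁ * d₂ + n₂ * d₁) +
          4 * d * t * (n * t + s * d) * (d₁ * d₂) =
        2 * n * s * (n * t + s * d) * (d₁ * d₂) + 2 * (n * t) * (s * d) * (n₁ * d₂ + n₂ * d₁) := by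
          exact_mod_cast e2
      field_simp
      linear_combination this
    have jl : (j : ℤ) ≠ l := by
      intro h
      rw [h, sub_self] at E1
      have := Xpos l
      have : 0 < (X l * X l + 2) ^ 2 := by positivity
      simp at E1
      linarith
    obtain ⟨x0, x1, x2⟩ := Xadd j l (by omega) (by omega) jl (by omega)
    have nz : (X j - X l) ^ 2 ≠ 0 := pow_ne_zero 2 (sub_ne_zero.2 x0)
    have p1 : u * v = X (j + l) * X (j - l) := mul_left_cancel₀ nz (E1.trans x1.symm)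
    have p2 : u + v = X (j + l) + X (j - l) := mul_left_cancel₀ nz (E2.trans x2.symm)
    have r1 := rat_unique hd₁ c1
    have r2 := rat_unique hd₂ c2
    have r0 := rat_unique hd c0
    rw [← hu] at r1
    rw [← hv] at r2
    rw [ej] at r0
    have : (u - X (j + l)) * (u - X (j - l)) = 0 := by linear_combination u * p2 - p1
    rcases mul_eq_zero.1 this with h | h
    · have hu' : u = X (j + l) := sub_eq_zero.1 h
      have hv' : v = X (j - l) := by linear_combination p2 - hu'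
      rw [hu'] at r1
      rw [hv'] at r2
      have eA : a = A j := by rw [ea, ← r1.1, ← r2.1]
      have jj : j₀ ≤ j := by
        have := H1 j (by rw [eA] at ha; exact ha)
        omega
      have a1 : 1 < a := by omega
      obtain ⟨m, rfl, rfl⟩ := pell_of_eq a1 hp
      rw [← xn_succ'] at i2
      subst eA
      obtain ⟨q1, q2⟩ := (H2 j jj).2 a1
      have nj : n = N j := r0.1.symm
      rw [nj] at i1 i2
      have m1 : m < j + 1 :=
        (strictMono_x a1).lt_iff_lt.1 (lt_of_pow_lt_pow_left₀ 2 (Nat.zero_le _) (i1.trans_lt q2))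
      have m2 : j < m + 1 :=
        (strictMono_x a1).lt_iff_lt.1 (lt_of_pow_lt_pow_left₀ 2 (Nat.zero_le _) (q1.trans_lt i2))
      obtain rfl : m = j := by omega
      have g := (grow m jj).2
      have hk : k = m := by
        rw [← hy, yn_modEq_a_sub_one a1 m, Nat.mod_eq_of_lt (by omega)]
      subst hk
      exact ⟨rfl, nj, r0.2.symm, r1.1.symm, r1.2.symm, r2.1.symm, r2.2.symm, a1, rfl, rfl⟩
    · exfalso
      have hu' : u = X (j - l) := sub_eq_zero.1 h
      have hv' : v = X (j + l) := by linear_combination p2 - hu'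
      rw [hu'] at r1
      rw [hv'] at r2
      have := H1 (-j) (by
        rw [ea, ← r1.1, ← r2.1] at ha
        simp only [hNdef]
        rw [show -(j : ℤ) + l = -(j - l) by ring, show -(j : ℤ) - l = -(j + l) by ring, Xneg, Xneg]
        exact ha)
      omega
  refine ⟨A, j₀ + a₀, fun k hk => grow k (by omega), ?_⟩
  have h1 := SF.exV (R := fun (v : Fin 3 → ℕ) (w : Fin 8 → ℕ) =>
    Phi s t (8 * l) a₀ (v 0) (v 1) (v 2) (w 0) (w 1) (w 2) (w 3) (w 4) (w 5) (w 6) (w 7))
    (SF_Phi s t (8 * l) a₀) (by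
      intro v w w' h h'
      obtain ⟨-, b1, b2, b3, b4, b5, b6, b7, -, b8⟩ := sound _ _ _ _ _ _ _ _ _ _ _ h
      obtain ⟨-, b1', b2', b3', b4', b5', b6', b7', -, b8'⟩ := sound _ _ _ _ _ _ _ _ _ _ _ h'
      have z1 := h.2.2.2.2.2.2.2.1
      have z2 := h'.2.2.2.2.2.2.2.1
      rw [b1, b2] at z1
      rw [b1', b2'] at z2
      have : w 2 = w' 2 := by
        have : w 2 ^ 2 = w' 2 ^ 2 := by omega
        exact Nat.pow_left_injective two_ne_zero this
      funext i
      fin_cases i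
      · exact b1.trans b1'.symm
      · exact b2.trans b2'.symm
      · exact this
      · exact b3.trans b3'.symm
      · exact b4.trans b4'.symm
      · exact b5.trans b5'.symm
      · exact b6.trans b6'.symm
      · exact b8.trans b8'.symm)
  refine ((SF.le (SFn.const (j₀ + a₀)) (SFn.proj 0)).and h1).congr fun v => and_congr_right ?_
  intro hk
  constructor
  · rintro ⟨w, h⟩
    obtain ⟨b0, -, -, -, -, -, -, b7, b8, -⟩ := sound _ _ _ _ _ _ _ _ _ _ _ h
    exact ⟨b0, b7, b8⟩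
  · rintro ⟨hA', a1, hx⟩
    generalize v 0 = k at hk hA' hx
    generalize v 1 = a at hA' a1 hx
    generalize v 2 = x at hx
    subst hA' hx
    have kj : j₀ ≤ k := by omega
    obtain ⟨y, hy⟩ := Xcurve k (by omega)
    obtain ⟨r0, -, c0, -⟩ := rat_repr (Xpos k)
    obtain ⟨r1, -, c1, -⟩ := rat_repr (Xpos (k + l))
    obtain ⟨r2, -, c2, -⟩ := rat_repr (Xpos (k - l))
    obtain ⟨-, x1, x2⟩ := Xadd k l (by omega) (by omega) (by omega) (by omega)
    change X k = (N k : ℚ) / _ at r0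
    change X (k + l) = (N (k + l) : ℚ) / _ at r1
    change X (k - l) = (N (k - l) : ℚ) / _ at r2
    change Nat.Coprime (N k) _ at c0
    change Nat.Coprime (N (k + l)) _ at c1
    change Nat.Coprime (N (k - l)) _ at c2
    have d0 := (X k).den_pos
    have d1 := (X (k + l)).den_pos
    have d2 := (X (k - l)).den_pos
    generalize (X k).den = d at r0 c0 d0
    generalize (X (k + l)).den = d₁ at r1 c1 d1
    generalize (X (k - l)).den = d₂ at r2 c2 d2
    have hd' : (0 : ℚ) < d := by exact_mod_cast d0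
    have hd₁' : (0 : ℚ) < d₁ := by exact_mod_cast d1
    have hd₂' : (0 : ℚ) < d₂ := by exact_mod_cast d2
    obtain ⟨z, hz⟩ : ∃ z : ℕ, d * N k ^ 3 = z ^ 2 + 2 * d ^ 3 * N k := by
      have : IsSquare ((((d : ℤ) * (N k : ℤ) ^ 3 - 2 * d ^ 3 * N k : ℤ)) : ℚ) := by
        refine ⟨y * d ^ 2, ?_⟩
        push_cast
        rw [r0] at hy
        field_simp at hy
        linear_combination (-(d : ℚ)) * hy
      rw [Rat.isSquare_intCast_iff] at this
      obtain ⟨Z, hZ⟩ := this
      refine ⟨Z.natAbs, ?_⟩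
      zify
      rw [sq_abs]
      linear_combination hZ
    obtain ⟨q1, q2⟩ := (H2 k kj).2 a1
    have g := (grow k kj).2
    refine ⟨![N k, d, z, N (k + l), d₁, N (k - l), d₂, yn a1 k], Npos k, d0, d1, d2, c0, c1, c2, hz,
      ?_, ?_, rfl, by omega, pell_eq' a1 k, q1, ?_, ?_⟩
    · rw [r0, r1, r2, hst] at x1
      have : (((N k : ℚ) * t) ^ 2 + (s * d) ^ 2) * (N (k + l) * N (k - l)) =
        (N k * s + 2 * d * t) ^ 2 * (d₁ * d₂) + 2 * (N k * t) * (s * d) * (N (k + l) * N (k - l)) := by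
          field_simp at x1
          linear_combination x1
      exact_mod_cast this
    · rw [r0, r1, r2, hst] at x2
      have : (((N k : ℚ) * t) ^ 2 + (s * d) ^ 2) * (N (k + l) * d₂ + N (k - l) * d₁) +
          4 * d * t * (N k * t + s * d) * (d₁ * d₂) =
        2 * N k * s * (N k * t + s * d) * (d₁ * d₂) +
          2 * (N k * t) * (s * d) * (N (k + l) * d₂ + N (k - l) * d₁) := by
          field_simp at x2
          linear_combination x2
      exact_mod_cast this
    · have := xn_succ' a1 k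
      rw [this] at q2
      exact q2
    · change yn a1 k % (A k - 1) = k
      rw [yn_modEq_a_sub_one a1 k, Nat.mod_eq_of_lt (by omega)]

end Vale.Agent.P345
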