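import Vale.Agent.P345.Growth

/-!
Exponentiation, binomial coefficients and factorials are single-fold Diophantine.
-/

namespace Vale.Agent.P345

open Pell

theorem pow_char {a K n : ℕ} (a1 : 1 < a) (hK : K + 2 ≤ a) (hn : n ≤ K) {x y : ℕ} :
    (x ^ 2 + y ^ 2 = a ^ 2 * y ^ 2 + 1 ∧ x ≤ xn a1 K ∧ y % (a - 1) = n) ↔
      (x = xn a1 n ∧ y = yn a1 n) := by
  constructor
  · rintro ⟨h1, h2, h3⟩
    obtain ⟨m, rfl, rfl⟩ := pell_of_eq a1 h1
    have := (strictMono_x a1).le_iff_le.1 h2
    rw [yn_modEq_a_sub_one a1 m, Nat.mod_eq_of_lt (by omega)] at h3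
    subst h3
    exact ⟨rfl, rfl⟩
  · rintro ⟨rfl, rfl⟩
    refine ⟨pell_eq' a1 n, (strictMono_x a1).monotone hn, ?_⟩
    rw [yn_modEq_a_sub_one a1 n, Nat.mod_eq_of_lt (by omega)]

theorem pow_char' {a b n m : ℕ} (a1 : 1 < a) (hb : 0 < b) (hba : b < a) (hp : b ^ n < a) :
    (xn a1 n % (2 * a * b - (b * b + 1)) = (yn a1 n * (a - b) + m) % (2 * a * b - (b * b + 1)) ∧
      m < 2 * a * b - (b * b + 1)) ↔ b ^ n = m := by
  have h1 : a + (b * b + 1) ≤ 2 * a * b := by
    obtain ⟨b, rfl⟩ : ∃ c, b = c + 1 := ⟨b - 1, by omega⟩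
    obtain ⟨e, rfl⟩ : ∃ e, a = b + 1 + 1 + e := ⟨a - (b + 1 + 1), by omega⟩
    nlinarith [Nat.zero_le (b * e), Nat.zero_le (b * b)]
  set t := 2 * a * b - (b * b + 1) with ht
  have te : (t : ℤ) = 2 * a * b - b * b - 1 := by
    rw [ht, Nat.cast_sub (by omega)]
    push_cast
    ring
  have tm : xn a1 n ≡ yn a1 n * (a - b) + b ^ n [MOD t] := by
    apply Nat.modEq_of_dvd
    rw [Int.natCast_add, Int.natCast_mul, Int.ofNat_sub hba.le, te]
    exact x_sub_y_dvd_pow a1 b n
  constructor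
  · rintro ⟨h2, h3⟩
    have h4 : yn a1 n * (a - b) + b ^ n ≡ yn a1 n * (a - b) + m [MOD t] := tm.symm.trans h2
    exact Nat.ModEq.eq_of_lt_of_lt (Nat.ModEq.add_left_cancel' _ h4) (by omega) h3
  · rintro rfl
    exact ⟨tm, by omega⟩

variable {α : Type} {f g : (α → ℕ) → ℕ}

theorem SFn.pow (hf : SFn f) (hg : SFn g) : SFn fun v => f v ^ g v := by
  refine SFn.comp₂ (F := fun a b => a ^ b) ?_ hf hg
  obtain ⟨A, k₀, hA, hS⟩ := exists_growth
  have A1 : ∀ k, 1 < A (k + k₀) := fun k => by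
    have := (hA (k + k₀) (by omega)).2
    omega
  have R : ∀ {β : Type} {p q r : (β → ℕ) → ℕ}, SFn p → SFn q → SFn r →
      SF fun v => k₀ ≤ p v ∧ q v = A (p v) ∧ ∃ h : 1 < q v, r v = xn h (p v) :=
    fun hp hq hr => SF.comp₃ (R := fun k a x => k₀ ≤ k ∧ a = A k ∧ ∃ h : 1 < a, x = xn h k)
      hS hp hq hr
  have SA : ∀ {β : Type} {p : (β → ℕ) → ℕ}, SFn p → SFn fun v => A (p v + k₀) := by
    intro β p hp
    refine SFn.comp₁ (F := fun k => A (k + k₀)) ?_ hp
    have : SF fun v : Option (Fin 1) → ℕ => ∃ x, k₀ ≤ v (some 0) + k₀ ∧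
        v none = A (v (some 0) + k₀) ∧ ∃ h : 1 < v none, x = xn h (v (some 0) + k₀) :=
      SF.exU (R ((SFn.proj _).add (SFn.const _)) (SFn.proj _) (SFn.proj _)) (by
        rintro v x y ⟨-, -, -, rfl⟩ ⟨-, -, -, rfl⟩
        rfl)
    refine this.congr fun v => ⟨fun ⟨_, _, h, _⟩ => h.symm, fun h => ?_⟩
    have h' : v none = A (v (some 0) + k₀) := h.symm
    exact ⟨_, by omega, h', h' ▸ A1 _, rfl⟩
  have SX : ∀ {β : Type} {p : (β → ℕ) → ℕ}, SFn p →
      SFn fun v => xn (A1 (p v)) (p v + k₀) := by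
    intro β p hp
    refine SFn.comp₁ (F := fun k => xn (A1 k) (k + k₀)) ?_ hp
    have : SF fun v : Option (Fin 1) → ℕ => ∃ a, k₀ ≤ v (some 0) + k₀ ∧
        a = A (v (some 0) + k₀) ∧ ∃ h : 1 < a, v none = xn h (v (some 0) + k₀) :=
      SF.exU (R ((SFn.proj _).add (SFn.const _)) (SFn.proj _) (SFn.proj _)) (by
        rintro v x y ⟨-, rfl, -⟩ ⟨-, rfl, -⟩
        rfl)
    refine this.congr fun v => ⟨?_, fun h => ⟨_, by omega, rfl, A1 _, h.symm⟩⟩
    rintro ⟨_, -, rfl, _, h⟩
    exact h.symm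
  let K : ℕ → ℕ → ℕ := fun b n => b * n + b + n + 1
  have SK : ∀ {β : Type} {p q : (β → ℕ) → ℕ}, SFn p → SFn q → SFn fun v => K (p v) (q v) :=
    fun hp hq => (((hp.mul hq).add hp).add hq).add (SFn.const 1)
  let Ψ : ℕ → ℕ → ℕ → ℕ → ℕ → Prop := fun b n m x y =>
    (x ^ 2 + y ^ 2 = A (K b n + k₀) ^ 2 * y ^ 2 + 1 ∧ x ≤ xn (A1 (K b n)) (K b n + k₀) ∧
      y % (A (K b n + k₀) - 1) = n) ∧
    (x % (2 * A (K b n + k₀) * b - (b * b + 1)) =
      (y * (A (K b n + k₀) - b) + m) % (2 * A (K b n + k₀) * b - (b * b + 1)) ∧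
      m < 2 * A (K b n + k₀) * b - (b * b + 1))
  have c1 : ∀ b n x y, (x ^ 2 + y ^ 2 = A (K b n + k₀) ^ 2 * y ^ 2 + 1 ∧
      x ≤ xn (A1 (K b n)) (K b n + k₀) ∧ y % (A (K b n + k₀) - 1) = n) ↔
      (x = xn (A1 (K b n)) n ∧ y = yn (A1 (K b n)) n) := fun b n x y =>
    pow_char (A1 _) (hA _ (by omega)).2 (by simp only [K]; omega)
  have SΨ : SF fun v : Option (Fin 2) → ℕ => ∃ w : Fin 2 → ℕ,
      Ψ (v (some 0)) (v (some 1)) (v none) (w 0) (w 1) := by
    refine SF.exV (R := fun (v : Option (Fin 2) → ℕ) (w : Fin 2 → ℕ) =>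
      Ψ (v (some 0)) (v (some 1)) (v none) (w 0) (w 1)) ?_ ?_
    · simp only [Ψ]
      repeat' first
        | with_reducible exact SFn.proj _
        | with_reducible exact SFn.const _
        | with_reducible exact SA (SK (SFn.proj _) (SFn.proj _))
        | with_reducible exact SX (SK (SFn.proj _) (SFn.proj _))
        | with_reducible apply SF.and
        | with_reducible apply SF.eq
        | with_reducible apply SF.lt
        | with_reducible apply SF.le
        | with_reducible apply SFn.add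
        | with_reducible apply SFn.mul
        | with_reducible apply SFn.sub
        | with_reducible apply SFn.mod
        | with_reducible apply SFn.pow_const
    · intro v w w' h h'
      have e1 := (c1 _ _ _ _).1 h.1
      have e2 := (c1 _ _ _ _).1 h'.1
      funext i
      fin_cases i
      · exact e1.1.trans e2.1.symm
      · exact e1.2.trans e2.2.symm
  have : SF fun v : Option (Fin 2) → ℕ =>
      (v (some 0) = 0 ∧ ((v (some 1) = 0 ∧ v none = 1) ∨ (0 < v (some 1) ∧ v none = 0))) ∨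
      (0 < v (some 0) ∧ ∃ w : Fin 2 → ℕ, Ψ (v (some 0)) (v (some 1)) (v none) (w 0) (w 1)) :=
    ((SF.eq (SFn.proj _) (SFn.const _)).and
      (((SF.eq (SFn.proj _) (SFn.const _)).and (SF.eq (SFn.proj _) (SFn.const _))).or
        ((SF.lt (SFn.const _) (SFn.proj _)).and (SF.eq (SFn.proj _) (SFn.const _)))
        fun v => by omega)).or ((SF.lt (SFn.const _) (SFn.proj _)).and SΨ) fun v => by omega
  refine this.congr fun v => ?_
  beta_reduce
  generalize v (some 0) = b, v (some 1) = n, v none = m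
  rcases b.eq_zero_or_pos with rfl | hb
  · rcases n.eq_zero_or_pos with rfl | hn
    · simp [eq_comm]
    · simp [hn, hn.ne', eq_comm]
  · have hA' := hA (K b n + k₀) (by omega)
    have l1 : b < A (K b n + k₀) := by
      have := hA'.2
      simp only [K] at this ⊢
      omega
    have l2 : b ^ n < A (K b n + k₀) := by
      refine lt_of_lt_of_le ?_ hA'.1
      calc b ^ n ≤ (2 ^ b) ^ n := Nat.pow_le_pow_left Nat.lt_two_pow_self.le n
        _ = 2 ^ (b * n) := by rw [pow_mul]
        _ < 2 ^ (K b n + k₀) := Nat.pow_lt_pow_right (by norm_num) (by simp only [K]; omega)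
    rw [← pow_char' (A1 (K b n)) hb l1 l2]
    constructor
    · rintro (⟨h, -⟩ | ⟨-, w, h1, h2⟩)
      · omega
      · obtain ⟨e1, e2⟩ := (c1 _ _ _ _).1 h1
        rwa [e1, e2] at h2
    · intro h
      exact Or.inr ⟨hb, ![xn (A1 (K b n)) n, yn (A1 (K b n)) n], (c1 _ _ _ _).2 ⟨rfl, rfl⟩, h⟩

theorem digit_sum_lt {B : ℕ} {d : ℕ → ℕ} :
    ∀ N, (∀ i < N, d i < B) → ∑ i ∈ Finset.range N, d i * B ^ i < B ^ N
  | 0, _ => by simp
  | N + 1, h => by
    have h1 := digit_sum_lt N fun i hi => h i (by omega)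
    have h2 := h N (by omega)
    rw [Finset.sum_range_succ, pow_succ]
    nlinarith [Nat.zero_le (B ^ N)]

theorem digit_sum {B : ℕ} {d : ℕ → ℕ} :
    ∀ N, (∀ i < N, d i < B) → ∀ k < N, (∑ i ∈ Finset.range N, d i * B ^ i) / B ^ k % B = d k
  | 0, _, k, hk => by omega
  | N + 1, h, k, hk => by
    have hB : 0 < B := lt_of_le_of_lt (Nat.zero_le _) (h 0 (by omega))
    rw [Finset.sum_range_succ]
    rcases Nat.lt_succ_iff_lt_or_eq.1 hk with hk' | rfl
    · have ih := digit_sum N (fun i hi => h i (by omega)) k hk'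
      obtain ⟨e, rfl⟩ : ∃ e, N = k + 1 + e := ⟨N - (k + 1), by omega⟩
      rw [show d (k + 1 + e) * B ^ (k + 1 + e) = B ^ k * (B * (d (k + 1 + e) * B ^ e)) by ring,
        Nat.add_mul_div_left _ _ (by positivity), Nat.add_mul_mod_self_left, ih]
    · have h1 := digit_sum_lt (B := B) (d := d) k fun i hi => h i (by omega)
      rw [Nat.add_mul_div_right _ _ (by positivity), Nat.div_eq_of_lt h1, zero_add,
        Nat.mod_eq_of_lt (h k (by omega))]

theorem eq_digit_sum {B : ℕ} : ∀ N s, s < B ^ N →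
    s = ∑ i ∈ Finset.range N, (s / B ^ i % B) * B ^ i
  | 0, s, h => by simpa using h
  | N + 1, s, h => by
    rcases B.eq_zero_or_pos with rfl | hB
    · simp at h
    have ih := eq_digit_sum N (s / B) (by
      rw [Nat.div_lt_iff_lt_mul hB]
      rwa [pow_succ] at h)
    rw [Finset.sum_range_succ']
    have : ∑ i ∈ Finset.range N, (s / B ^ (i + 1) % B) * B ^ (i + 1) =
        B * ∑ i ∈ Finset.range N, (s / B / B ^ i % B) * B ^ i := by
      rw [Finset.mul_sum]
      refine Finset.sum_congr rfl fun i _ => ?_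
      rw [Nat.div_div_eq_div_mul, pow_succ']
      ring
    rw [this, ← ih]
    simp [Nat.div_add_mod]

theorem choose_eq (n k : ℕ) : n.choose k = (2 ^ n + 1 + 1) ^ n / (2 ^ n + 1) ^ k % (2 ^ n + 1) := by
  set u := 2 ^ n + 1 with hu
  have h1 : (u + 1) ^ n = ∑ i ∈ Finset.range (n + 1 + k), n.choose i * u ^ i := by
    rw [add_pow, Finset.sum_range_add _ (n + 1) k]
    have : ∑ x ∈ Finset.range k, n.choose (n + 1 + x) * u ^ (n + 1 + x) = 0 :=
      Finset.sum_eq_zero fun x _ => by rw [Nat.choose_eq_zero_of_lt (by omega), zero_mul]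
    rw [this, add_zero]
    exact Finset.sum_congr rfl fun i _ => by simp [mul_comm]
  rw [h1, digit_sum _ (fun i _ => Nat.lt_succ_of_le (Nat.choose_le_two_pow n i)) k (by omega)]

theorem SFn.choose (hf : SFn f) (hg : SFn g) : SFn fun v => Nat.choose (f v) (g v) := by
  have hu : SFn fun v => 2 ^ f v + 1 := ((SFn.const 2).pow hf).add (SFn.const 1)
  exact ((((hu.add (SFn.const 1)).pow hf).div (hu.pow hg)).mod hu).congr
    fun v => (choose_eq _ _).symm

theorem factorial_eq (n r : ℕ) (hr : n * n * (n.factorial + 1) + n < r) :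
    n.factorial = r ^ n / r.choose n := by
  have nr : n ≤ r := by omega
  have hc : 0 < r.choose n := Nat.choose_pos nr
  have e := Nat.descFactorial_eq_factorial_mul_choose r n
  have h1 : r.descFactorial n ≤ r ^ n := Nat.descFactorial_le_pow r n
  have h2 : (r + 1 - n) ^ n ≤ r.descFactorial n := Nat.pow_sub_le_descFactorial r n
  have h3 : (r - n) ^ n ≤ (r + 1 - n) ^ n := Nat.pow_le_pow_left (by omega) n
  symm
  rw [Nat.div_eq_iff hc]
  refine ⟨by rw [← e]; exact h1, ?_⟩
  have fpos := n.factorial_pos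
  have key : n.factorial * r ^ n < (n.factorial + 1) * (r - n) ^ n := by
    have rpos : (0 : ℝ) < r := by exact_mod_cast lt_of_le_of_lt (Nat.zero_le _) hr
    have nr' : (n : ℝ) ≤ r := by exact_mod_cast nr
    have b := one_add_mul_le_pow (a := -(n / r : ℝ)) (by
      have : (n / r : ℝ) ≤ 1 := (div_le_one rpos).2 nr'
      linarith) n
    have hr' : (n : ℝ) * n * (n.factorial + 1) + n < r := by exact_mod_cast hr
    have e1 : ((r : ℝ) - n) ^ n = (1 + -(n / r : ℝ)) ^ n * r ^ n := by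
      rw [← mul_pow]
      congr 1
      field_simp
      ring
    have e2 : (n.factorial : ℝ) < (n.factorial + 1) * (1 + n * -(n / r : ℝ)) := by
      have : (n.factorial + 1 : ℝ) * (n * (n / r)) < 1 := by
        rw [← mul_div_assoc, ← mul_div_assoc, div_lt_one rpos]
        have : (0 : ℝ) ≤ n := by positivity
        nlinarith
      linarith
    have : (n.factorial : ℝ) * r ^ n < (n.factorial + 1) * ((r : ℝ) - n) ^ n := by
      rw [e1, ← mul_assoc]
      refine mul_lt_mul_of_pos_right (e2.trans_le ?_) (by positivity)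
      exact mul_le_mul_of_nonneg_left b (by positivity)
    rw [← Nat.cast_sub nr] at this
    exact_mod_cast this
  have : n.factorial * r ^ n < n.factorial * ((n.factorial + 1) * r.choose n) := by
    calc n.factorial * r ^ n < (n.factorial + 1) * (r - n) ^ n := key
      _ ≤ (n.factorial + 1) * (n.factorial * r.choose n) :=
        Nat.mul_le_mul_left _ (by rw [← e]; exact h3.trans h2)
      _ = _ := by ring
  have := Nat.lt_of_mul_lt_mul_left this
  rw [add_mul, one_mul] at this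
  omega

theorem SFn.factorial (hf : SFn f) : SFn fun v => Nat.factorial (f v) := by
  have hr : SFn fun v => f v * f v * (f v ^ f v + 1) + f v + 1 :=
    (((hf.mul hf).mul ((hf.pow hf).add (SFn.const 1))).add hf).add (SFn.const 1)
  refine ((hr.pow hf).div (hr.choose hf)).congr fun v => (factorial_eq _ _ ?_).symm
  have := Nat.factorial_le_pow (f v)
  have : f v * f v * ((f v).factorial + 1) ≤ f v * f v * (f v ^ f v + 1) :=
    Nat.mul_le_mul_left _ (by omega)
  omega

theorem SFn.descFactorial (hf : SFn f) (hg : SFn g) :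
    SFn fun v => Nat.descFactorial (f v) (g v) :=
  (hg.factorial.mul (hf.choose hg)).congr
    fun _ => (Nat.descFactorial_eq_factorial_mul_choose _ _).symm

end Vale.Agent.P345
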