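import Mathlib

/-!
Arithmetic lemmas about rational points of `y ^ 2 = x ^ 3 - 2 * x`.
-/

namespace Vale.Agent.P345

/-- If `u = N / D` then `N` and `D` are the same multiple of numerator and denominator. -/
theorem exists_common_factor {u : ℚ} {N D : ℤ} (hD : 0 < D) (h : u * D = N) :
    ∃ g : ℤ, 0 < g ∧ N = g * u.num ∧ D = g * u.den := by
  have hu : u = Rat.divInt N D := by
    rw [Rat.divInt_eq_div, eq_div_iff (by exact_mod_cast hD.ne'), h]
  obtain ⟨c, h1, h2⟩ := Rat.num_den_mk hD.ne' hu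
  refine ⟨c, ?_, h1, h2⟩
  have : (0 : ℤ) < u.den := by exact_mod_cast u.den_pos
  by_contra hc
  push Not at hc
  nlinarith

theorem not_eight_dvd {n d : ℤ} (h : IsCoprime n d) : ¬ (8 : ℤ) ∣ (n ^ 2 + 2 * d ^ 2) ^ 2 := by
  rcases Int.even_or_odd' n with ⟨a, rfl | rfl⟩
  · rcases Int.even_or_odd' d with ⟨b, rfl | rfl⟩
    · have := h.isUnit_of_dvd' (dvd_mul_right 2 a) (dvd_mul_right 2 b)
      rw [Int.isUnit_iff] at this
      omega
    · have : ((2 * a) ^ 2 + 2 * (2 * b + 1) ^ 2) ^ 2 =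
          8 * (2 * ((a ^ 2 + 2 * b ^ 2 + 2 * b) ^ 2 + (a ^ 2 + 2 * b ^ 2 + 2 * b))) + 4 := by ring
      rw [this]
      omega
  · have : ((2 * a + 1) ^ 2 + 2 * d ^ 2) ^ 2 =
        2 * (2 * ((2 * a ^ 2 + 2 * a + d ^ 2) ^ 2 + (2 * a ^ 2 + 2 * a + d ^ 2))) + 1 := by ring
    rw [this]
    omega

theorem common_factor_le_four {n d g : ℤ} (h : IsCoprime n d) (hg : 0 < g)
    (h1 : g ∣ (n ^ 2 + 2 * d ^ 2) ^ 2) (h2 : g ∣ 4 * d * n * (n ^ 2 - 2 * d ^ 2)) : g ≤ 4 := by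
  lift g to ℕ using hg.le
  have hg0 : g ≠ 0 := by omega
  have hp : ∀ {p : ℕ}, p.Prime → p ∣ g → p = 2 := by
    intro p pp hpg
    by_contra hne
    have pz : Prime (p : ℤ) := Nat.prime_iff_prime_int.1 pp
    have hpg' : (p : ℤ) ∣ g := by exact_mod_cast hpg
    have a1 : (p : ℤ) ∣ n ^ 2 + 2 * d ^ 2 := pz.dvd_of_dvd_pow (hpg'.trans h1)
    have two : ¬ (p : ℤ) ∣ 2 := fun h2 =>
      hne ((Nat.prime_dvd_prime_iff_eq pp Nat.prime_two).1 (by exact_mod_cast h2))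
    have four : ¬ (p : ℤ) ∣ 4 := fun h4 => two (pz.dvd_of_dvd_pow (n := 2) (by simpa using h4))
    have nd : (p : ℤ) ∣ n → (p : ℤ) ∣ d → False := fun a b =>
      pz.not_isUnit (h.isUnit_of_dvd' a b)
    have hd : ¬ (p : ℤ) ∣ d := fun hd => by
      have : (p : ℤ) ∣ n ^ 2 := by
        have := dvd_sub a1 (Dvd.dvd.mul_left (dvd_pow hd two_ne_zero) 2)
        simpa using this
      exact nd (pz.dvd_of_dvd_pow this) hd
    have hn : ¬ (p : ℤ) ∣ n := fun hn => by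
      have : (p : ℤ) ∣ 2 * d ^ 2 := by
        have := dvd_sub a1 (dvd_pow hn two_ne_zero)
        simpa using this
      rcases pz.dvd_or_dvd this with h' | h'
      · exact two h'
      · exact hd (pz.dvd_of_dvd_pow h')
    rcases pz.dvd_or_dvd (hpg'.trans h2) with h' | h'
    · rcases pz.dvd_or_dvd h' with h' | h'
      · rcases pz.dvd_or_dvd h' with h' | h'
        · exact four h'
        · exact hd h'
      · exact hn h'
    · have : (p : ℤ) ∣ 4 * d ^ 2 := by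
        have := dvd_sub a1 h'
        rwa [show n ^ 2 + 2 * d ^ 2 - (n ^ 2 - 2 * d ^ 2) = 4 * d ^ 2 by ring] at this
      rcases pz.dvd_or_dvd this with h' | h'
      · exact four h'
      · exact hd (pz.dvd_of_dvd_pow h')
  have hk := Nat.eq_prime_pow_of_unique_prime_dvd hg0 hp
  set k := g.primeFactorsList.length
  have hk2 : k ≤ 2 := by
    by_contra hc
    apply not_eight_dvd h
    refine Dvd.dvd.trans ?_ h1
    rw [hk]
    have : (2 : ℕ) ^ 3 ∣ 2 ^ k := pow_dvd_pow 2 (by omega)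
    exact_mod_cast this
  have : (2 : ℕ) ^ k ≤ 2 ^ 2 := Nat.pow_le_pow_right (by norm_num) hk2
  omega

theorem isCoprime_num_den (x : ℚ) : IsCoprime x.num (x.den : ℤ) := by
  rw [Int.isCoprime_iff_gcd_eq_one]
  exact x.reduced

theorem curve_sq_gt {x y : ℚ} (hx : 0 < x) (h : y ^ 2 = x ^ 3 - 2 * x) : 2 < x ^ 2 := by
  have h1 : 0 ≤ x * (x ^ 2 - 2) := by nlinarith [sq_nonneg y]
  have h2 : 0 ≤ x ^ 2 - 2 := nonneg_of_mul_nonneg_right h1 hx |> fun h => h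
  rcases h2.lt_or_eq with h3 | h3
  · linarith
  · exfalso
    have : IsSquare (((2 : ℕ) : ℚ)) := ⟨x, by push_cast; nlinarith⟩
    rw [Rat.isSquare_natCast_iff] at this
    exact Nat.prime_two.prime.not_isSquare this

theorem curve_y_ne {x y : ℚ} (hx : 0 < x) (h : y ^ 2 = x ^ 3 - 2 * x) : y ≠ 0 := by
  rintro rfl
  have := curve_sq_gt hx h
  nlinarith

theorem den_sq_lt {x : ℚ} (h : 2 < x ^ 2) : 2 * (x.den : ℤ) ^ 2 < x.num ^ 2 := by
  have hd : (0 : ℚ) < x.den := by exact_mod_cast x.den_pos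
  have e : (x.num : ℚ) = x * x.den := (Rat.mul_den_eq_num x).symm
  have : 2 * (x.den : ℚ) ^ 2 < (x.num : ℚ) ^ 2 := by
    rw [e, mul_pow]
    nlinarith [sq_pos_of_pos hd]
  exact_mod_cast this

theorem two_le_num {x : ℚ} (hx : 0 < x) (h : 2 < x ^ 2) : 2 ≤ x.num := by
  have h1 := den_sq_lt h
  have h2 : 0 < x.num := Rat.num_pos.2 hx
  have h3 : (1 : ℤ) ≤ x.den := by exact_mod_cast x.den_pos
  by_contra hc
  have : x.num = 1 := by omega
  rw [this] at h1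
  nlinarith

/-- Height bounds for doubling. -/
theorem num_double {x y : ℚ} (hx : 0 < x) (h : y ^ 2 = x ^ 3 - 2 * x) :
    x.num ^ 4 ≤ 4 * (((x ^ 2 + 2) / (2 * y)) ^ 2).num ∧
      (((x ^ 2 + 2) / (2 * y)) ^ 2).num ≤ 4 * x.num ^ 4 := by
  have hy := curve_y_ne hx h
  have h2 := curve_sq_gt hx h
  have h3 := den_sq_lt h2
  have hn : 0 < x.num := Rat.num_pos.2 hx
  have hd : (0 : ℤ) < x.den := by exact_mod_cast x.den_pos
  have hdq : (x.den : ℚ) ≠ 0 := by exact_mod_cast x.den_ne_zero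
  set u := ((x ^ 2 + 2) / (2 * y)) ^ 2 with hu
  have upos : 0 < u := by positivity
  have hD : 0 < 4 * (x.den : ℤ) * x.num * (x.num ^ 2 - 2 * (x.den : ℤ) ^ 2) := by
    have : 0 < x.num ^ 2 - 2 * (x.den : ℤ) ^ 2 := by linarith
    positivity
  have e : (x.num : ℚ) = x * x.den := (Rat.mul_den_eq_num x).symm
  obtain ⟨g, hg, e1, e2⟩ := exists_common_factor (u := u)
    (N := (x.num ^ 2 + 2 * (x.den : ℤ) ^ 2) ^ 2) hD (by
      push_cast
      rw [e, hu]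
      field_simp
      linear_combination (-4 : ℚ) * h)
  have hg4 := common_factor_le_four (isCoprime_num_den x) hg ⟨_, e1⟩ ⟨_, e2⟩
  have un : 0 < u.num := Rat.num_pos.2 upos
  constructor
  · have : x.num ^ 4 ≤ (x.num ^ 2 + 2 * (x.den : ℤ) ^ 2) ^ 2 := by nlinarith [sq_nonneg x.num, sq_nonneg (x.den : ℤ), mul_pos (pow_pos hn 2) (pow_pos hd 2)]
    nlinarith
  · have : (x.num ^ 2 + 2 * (x.den : ℤ) ^ 2) ^ 2 ≤ (2 * x.num ^ 2) ^ 2 :=
      pow_le_pow_left₀ (by positivity) (by linarith) 2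
    nlinarith

theorem den_mul_dvd {n₁ n₂ d₁ d₂ U V W : ℤ} (h₁ : IsCoprime n₁ d₁) (h₂ : IsCoprime n₂ d₂)
    (e₁ : W * (n₁ * n₂) = U * (d₁ * d₂)) (e₂ : W * (n₁ * d₂ + n₂ * d₁) = V * (d₁ * d₂)) :
    d₁ * d₂ ∣ W := by
  obtain ⟨a, b, hab⟩ := h₁
  obtain ⟨c, d, hcd⟩ := h₂
  -- `d₁ d₂` divides `W * n₁ n₂`, `W * (n₁ d₂ + n₂ d₁)`
  have k1 : d₁ * d₂ ∣ W * (n₁ * n₂) := ⟨U, by rw [e₁]; ring⟩
  have k2 : d₁ * d₂ ∣ W * (n₁ * d₂ + n₂ * d₁) := ⟨V, by rw [e₂]; ring⟩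
  have k3 : d₁ * d₂ ∣ W * (d₁ * d₂) := Dvd.intro_left _ rfl
  -- squares of the four generators
  have s1 : d₁ * d₂ ∣ W * (n₁ * d₂) ^ 2 := by
    have : W * (n₁ * d₂) ^ 2 =
        W * (n₁ * d₂ + n₂ * d₁) * (n₁ * d₂) - W * (d₁ * d₂) * (n₁ * n₂) := by ring
    rw [this]
    exact dvd_sub (k2.mul_right _) (k3.mul_right _)
  have s2 : d₁ * d₂ ∣ W * (n₂ * d₁) ^ 2 := by
    have : W * (n₂ * d₁) ^ 2 =
        W * (n₁ * d₂ + n₂ * d₁) * (n₂ * d₁) - W * (d₁ * d₂) * (n₁ * n₂) := by ring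
    rw [this]
    exact dvd_sub (k2.mul_right _) (k3.mul_right _)
  have one : (a * c * (n₁ * n₂) + b * d * (d₁ * d₂) + (a * d * (n₁ * d₂) + b * c * (n₂ * d₁))) = 1 := by
    have : (a * n₁ + b * d₁) * (c * n₂ + d * d₂) = 1 := by rw [hab, hcd, one_mul]
    linear_combination this
  set A := a * c * (n₁ * n₂) + b * d * (d₁ * d₂)
  set B := a * d * (n₁ * d₂) + b * c * (n₂ * d₁)
  have kA : d₁ * d₂ ∣ W * A := by
    have : W * A = W * (n₁ * n₂) * (a * c) + W * (d₁ * d₂) * (b * d) := by simp only [A]; ring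
    rw [this]
    exact dvd_add (k1.mul_right _) (k3.mul_right _)
  have kB : d₁ * d₂ ∣ W * B ^ 2 := by
    have : W * B ^ 2 = W * (n₁ * d₂) ^ 2 * (a * d) ^ 2 + W * (n₂ * d₁) ^ 2 * (b * c) ^ 2 +
        W * (d₁ * d₂) * (2 * a * d * b * c * n₁ * n₂) := by simp only [B]; ring
    rw [this]
    exact dvd_add (dvd_add (s1.mul_right _) (s2.mul_right _)) (k3.mul_right _)
  have : W = W * A * (A + 2 * B) + W * B ^ 2 := by
    have : W = W * (A + B) ^ 2 := by rw [one]; ring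
    linear_combination this
  rw [this]
  exact dvd_add (kA.mul_right _) kB

/-- Height bound for sum and difference. -/
theorem num_add_sub {x₁ x₂ u v : ℚ} (h₁ : 0 < x₁) (h₂ : 0 < x₂) (g₁ : 2 < x₁ ^ 2) (g₂ : 2 < x₂ ^ 2)
    (hu : 0 < u) (hv : 0 < v)
    (e₁ : (x₁ - x₂) ^ 2 * (u * v) = (x₁ * x₂ + 2) ^ 2)
    (e₂ : (x₁ - x₂) ^ 2 * (u + v) = 2 * (x₁ * x₂ - 2) * (x₁ + x₂)) :
    u.num * v.num ≤ 4 * (x₁.num * x₂.num) ^ 2 := by
  have a1 : (x₁.num : ℚ) = x₁ * x₁.den := (Rat.mul_den_eq_num x₁).symm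
  have a2 : (x₂.num : ℚ) = x₂ * x₂.den := (Rat.mul_den_eq_num x₂).symm
  have a3 : (u.num : ℚ) = u * u.den := (Rat.mul_den_eq_num u).symm
  have a4 : (v.num : ℚ) = v * v.den := (Rat.mul_den_eq_num v).symm
  have E₁ : (x₁.num * x₂.den - x₂.num * x₁.den) ^ 2 * (u.num * v.num) =
      (x₁.num * x₂.num + 2 * x₁.den * x₂.den) ^ 2 * ((u.den : ℤ) * v.den) := by
    have : ((x₁.num : ℚ) * x₂.den - x₂.num * x₁.den) ^ 2 * (u.num * v.num) =
      (x₁.num * x₂.num + 2 * x₁.den * x₂.den) ^ 2 * ((u.den : ℚ) * v.den) := by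
      rw [a1, a2, a3, a4]
      linear_combination ((x₁.den : ℚ) * x₂.den) ^ 2 * u.den * v.den * e₁
    exact_mod_cast this
  have E₂ : (x₁.num * x₂.den - x₂.num * x₁.den) ^ 2 * (u.num * v.den + v.num * u.den) =
      (2 * (x₁.num * x₂.num - 2 * x₁.den * x₂.den) * (x₁.num * x₂.den + x₂.num * x₁.den)) *
        ((u.den : ℤ) * v.den) := by
    have : ((x₁.num : ℚ) * x₂.den - x₂.num * x₁.den) ^ 2 * (u.num * v.den + v.num * u.den) =
      (2 * (x₁.num * x₂.num - 2 * x₁.den * x₂.den) * (x₁.num * x₂.den + x₂.num * x₁.den)) *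
        ((u.den : ℚ) * v.den) := by
      rw [a1, a2, a3, a4]
      linear_combination ((x₁.den : ℚ) * x₂.den) ^ 2 * u.den * v.den * e₂
    exact_mod_cast this
  obtain ⟨g, hg⟩ := den_mul_dvd (isCoprime_num_den u) (isCoprime_num_den v) E₁ E₂
  have n1 : 0 < x₁.num := Rat.num_pos.2 h₁
  have n2 : 0 < x₂.num := Rat.num_pos.2 h₂
  have nu : 0 < u.num := Rat.num_pos.2 hu
  have nv : 0 < v.num := Rat.num_pos.2 hv
  have d1 : (0 : ℤ) < x₁.den := by exact_mod_cast x₁.den_pos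
  have d2 : (0 : ℤ) < x₂.den := by exact_mod_cast x₂.den_pos
  have du : (0 : ℤ) < u.den := by exact_mod_cast u.den_pos
  have dv : (0 : ℤ) < v.den := by exact_mod_cast v.den_pos
  have hU : g * (u.num * v.num) = (x₁.num * x₂.num + 2 * x₁.den * x₂.den) ^ 2 := by
    rw [hg] at E₁
    have : ((u.den : ℤ) * v.den) ≠ 0 := by positivity
    apply mul_right_cancel₀ this
    linear_combination E₁
  have hUpos : 0 < (x₁.num * x₂.num + 2 * x₁.den * x₂.den) ^ 2 := by positivity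
  have huv : 0 < u.num * v.num := by positivity
  have g1 : 1 ≤ g := by
    by_contra hc
    have : g ≤ 0 := by omega
    nlinarith
  have b1 := den_sq_lt g₁
  have b2 := den_sq_lt g₂
  have b3 : 2 * (x₁.den : ℤ) * x₂.den ≤ x₁.num * x₂.num := by
    have : (2 * (x₁.den : ℤ) * x₂.den) ^ 2 ≤ (x₁.num * x₂.num) ^ 2 := by
      calc (2 * (x₁.den : ℤ) * x₂.den) ^ 2 = (2 * (x₁.den : ℤ) ^ 2) * (2 * (x₂.den : ℤ) ^ 2) := by
            ring
        _ ≤ x₁.num ^ 2 * x₂.num ^ 2 := mul_le_mul b1.le b2.le (by positivity) (by positivity)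
        _ = _ := by ring
    exact (pow_le_pow_iff_left₀ (by positivity) (by positivity) two_ne_zero).1 this
  have b4 : (x₁.num * x₂.num + 2 * x₁.den * x₂.den) ^ 2 ≤ (2 * (x₁.num * x₂.num)) ^ 2 :=
    pow_le_pow_left₀ (by positivity) (by linarith) 2
  nlinarith

/-- Two-descent: the square class of `X` is `1` or `2`. -/
theorem isSquare_or {X Y : ℚ} {b : ℤ} (hb : ∀ p : ℕ, p.Prime → (p : ℤ) ∣ b → p = 2) (hX : 0 < X)
    (h : Y ^ 2 = X * (X ^ 2 + b)) : IsSquare X ∨ IsSquare (2 * X) := by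
  have hn : 0 < X.num := Rat.num_pos.2 hX
  obtain ⟨N, hN⟩ := Int.eq_ofNat_of_zero_le hn.le
  have hNpos : 0 < N := by omega
  have e : (N : ℚ) = X * X.den := by
    rw [Rat.mul_den_eq_num, hN]; simp
  set D := X.den with hDdef
  have hD : 0 < D := X.den_pos
  have cop : IsCoprime (N : ℤ) (D : ℤ) := hN ▸ isCoprime_num_den X
  have sq : IsSquare ((((N * D : ℕ) : ℤ) * ((N : ℤ) ^ 2 + b * (D : ℤ) ^ 2) : ℤ) : ℚ) := by
    refine ⟨Y * D ^ 2, ?_⟩
    push_cast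
    rw [e]
    linear_combination (-(D : ℚ) ^ 4) * h
  rw [Rat.isSquare_intCast_iff] at sq
  obtain ⟨Z, hZ⟩ := sq
  obtain ⟨s, r, hrs, hs⟩ := Nat.sq_mul_squarefree (N * D)
  have hr : r ≠ 0 := by
    rintro rfl
    have : 0 < N * D := by positivity
    simp at hrs
    omega
  have hs0 : s ≠ 0 := hs.ne_zero
  set K : ℤ := (N : ℤ) ^ 2 + b * (D : ℤ) ^ 2 with hK
  have hrZ : (r : ℤ) ∣ Z := by
    rw [← Int.pow_dvd_pow_iff two_ne_zero]
    refine ⟨s * K, ?_⟩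
    rw [sq, ← hZ, ← hrs]
    push_cast
    ring
  obtain ⟨T, rfl⟩ := hrZ
  have hT : (s : ℤ) * K = T * T := by
    have : ((r : ℤ) ^ 2) ≠ 0 := by positivity
    apply mul_left_cancel₀ this
    rw [← hrs] at hZ
    push_cast at hZ
    linear_combination hZ
  have hp : ∀ {p : ℕ}, p.Prime → p ∣ s → p = 2 := by
    intro p pp hps
    by_contra hne
    have pz : Prime (p : ℤ) := Nat.prime_iff_prime_int.1 pp
    obtain ⟨s', rfl⟩ := hps
    have hs' : ¬ p ∣ s' := fun h' => pp.not_isUnit (hs p (mul_dvd_mul_left p h'))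
    have pT : (p : ℤ) ∣ T := by
      have : (p : ℤ) ∣ T * T := ⟨s' * K, by rw [← hT]; push_cast; ring⟩
      exact (pz.dvd_or_dvd this).elim id id
    obtain ⟨T', rfl⟩ := pT
    have : (p : ℤ) ∣ s' * K := by
      refine ⟨T' * T', ?_⟩
      apply mul_left_cancel₀ pz.ne_zero
      push_cast at hT
      linear_combination hT
    have pK : (p : ℤ) ∣ K := (pz.dvd_or_dvd this).resolve_left fun h' => hs' (by exact_mod_cast h')
    have pND : (p : ℤ) ∣ (N : ℤ) * D := by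
      have : p ∣ N * D := ⟨r ^ 2 * s', by rw [← hrs]; ring⟩
      exact_mod_cast this
    have nd : (p : ℤ) ∣ N → (p : ℤ) ∣ D → False := fun a b =>
      pz.not_isUnit (cop.isUnit_of_dvd' a b)
    rcases pz.dvd_or_dvd pND with h' | h'
    · have : (p : ℤ) ∣ b * (D : ℤ) ^ 2 := by
        have := dvd_sub pK (dvd_pow h' two_ne_zero)
        simpa [hK] using this
      rcases pz.dvd_or_dvd this with h'' | h''
      · exact hne (hb p pp h'')
      · exact nd h' (pz.dvd_of_dvd_pow h'')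
    · have : (p : ℤ) ∣ (N : ℤ) ^ 2 := by
        have := dvd_sub pK (Dvd.dvd.mul_left (dvd_pow h' two_ne_zero) b)
        simpa [hK] using this
      exact nd (pz.dvd_of_dvd_pow this) h'
  have hk := Nat.eq_prime_pow_of_unique_prime_dvd hs0 hp
  set k := s.primeFactorsList.length
  have hk1 : k ≤ 1 := by
    by_contra hc
    have : 2 * 2 ∣ s := by
      rw [hk]
      exact (pow_dvd_pow 2 (show 2 ≤ k by omega) : (2 : ℕ) ^ 2 ∣ 2 ^ k)
    exact Nat.prime_two.not_isUnit (hs 2 this)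
  have hDq : (D : ℚ) ≠ 0 := by positivity
  have hX' : X = s * (r / D) ^ 2 := by
    have : (r : ℚ) ^ 2 * s = N * D := by exact_mod_cast hrs
    rw [e] at this
    field_simp
    linear_combination -this
  interval_cases k
  · left
    exact ⟨r / D, by rw [hX', hk]; push_cast; ring⟩
  · right
    exact ⟨2 * (r / D), by rw [hX', hk]; push_cast; ring⟩

end Vale.Agent.P345
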