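import Vale.Agent.P345.Ball

/-!
Graphs of partially recursive functions are single-fold Diophantine.
-/

namespace Vale.Agent.P345

theorem mem_prec {f g : ℕ →. ℕ} {a : ℕ} : ∀ (n z : ℕ),
    z ∈ (n.rec (f a) (fun y IH => do let i ← IH; g (Nat.pair a (Nat.pair y i))) : Part ℕ) ↔
      ∃ u : ℕ → ℕ, u 0 ∈ f a ∧ (∀ i < n, u (i + 1) ∈ g (Nat.pair a (Nat.pair i (u i)))) ∧ u n = z
  | 0, z => ⟨fun h => ⟨fun _ => z, h, fun i hi => by omega, rfl⟩, by
      rintro ⟨u, h, -, rfl⟩
      exact h⟩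
  | n + 1, z => by
    simp only [Part.bind_eq_bind, Part.mem_bind_iff]
    constructor
    · rintro ⟨i, hi, hz⟩
      obtain ⟨u, h0, h1, rfl⟩ := (mem_prec n i).1 hi
      refine ⟨fun k => if k = n + 1 then z else u k, by simpa using h0, fun i hi => ?_, by simp⟩
      rcases Nat.lt_succ_iff_lt_or_eq.1 hi with h | rfl
      · have := h1 i h
        simpa [show i + 1 ≠ n + 1 by omega, show i ≠ n + 1 by omega, h.ne] using this
      · simpa using hz
    · rintro ⟨u, h0, h1, rfl⟩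
      exact ⟨u n, (mem_prec n _).2 ⟨u, h0, fun i hi => h1 i (by omega), rfl⟩, h1 n (by omega)⟩

/-- Coding of the course of values of a recursion. -/
def Theta (f g : ℕ →. ℕ) (a n z B s : ℕ) : Prop :=
  s < B ^ (n + 2) ∧ s / B ^ 0 % B = 0 ∧ B = s / B ^ (n + 1) % B + 1 ∧ s / B ^ 1 % B ∈ f a ∧
  (∀ i < n, s / B ^ (i + 1) % B ≤ s / B ^ (i + 2) % B ∧
    s / B ^ (i + 2) % B - s / B ^ (i + 1) % B ∈
      g (Nat.pair a (Nat.pair i (s / B ^ (i + 1) % B - s / B ^ i % B)))) ∧
  s / B ^ (n + 1) % B - s / B ^ n % B = z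

theorem theta_iff {f g : ℕ →. ℕ} {a n z : ℕ} : (∃ B s, Theta f g a n z B s) ↔
    ∃ u : ℕ → ℕ, u 0 ∈ f a ∧ (∀ i < n, u (i + 1) ∈ g (Nat.pair a (Nat.pair i (u i)))) ∧
      u n = z := by
  constructor
  · rintro ⟨B, s, -, h0, -, h1, h2, h3⟩
    refine ⟨fun i => s / B ^ (i + 1) % B - s / B ^ i % B, ?_, fun i hi => (h2 i hi).2, h3⟩
    beta_reduce
    rw [h0]
    exact h1
  · rintro ⟨u, h0, h1, rfl⟩
    let d : ℕ → ℕ := fun k => ∑ i ∈ Finset.range k, u i
    have ds : ∀ k, d (k + 1) = d k + u k := fun k => Finset.sum_range_succ _ _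
    have mono : Monotone d := monotone_nat_of_le_succ fun k => by rw [ds]; omega
    have lt : ∀ i < n + 2, d i < d (n + 1) + 1 := fun i hi =>
      Nat.lt_succ_of_le (mono (by omega))
    have dg := digit_sum (n + 2) lt
    have d0 : d 0 = 0 := rfl
    refine ⟨d (n + 1) + 1, _, digit_sum_lt (n + 2) lt, ?_, ?_, ?_, fun i hi => ?_, ?_⟩
    · rw [dg 0 (by omega), d0]
    · rw [dg (n + 1) (by omega)]
    · rw [dg 1 (by omega), ds, d0, zero_add]
      exact h0
    · rw [dg (i + 1) (by omega), dg (i + 2) (by omega), dg i (by omega), ds (i + 1), ds i,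
        Nat.add_sub_cancel_left, Nat.add_sub_cancel_left]
      exact ⟨by omega, h1 i hi⟩
    · rw [dg (n + 1) (by omega), dg n (by omega), ds, Nat.add_sub_cancel_left]

theorem theta_unique {f g : ℕ →. ℕ} {a n z B s B' s' : ℕ} (h : Theta f g a n z B s)
    (h' : Theta f g a n z B' s') : B = B' ∧ s = s' := by
  obtain ⟨a1, a2, a3, a4, a5, -⟩ := h
  obtain ⟨b1, b2, b3, b4, b5, -⟩ := h'
  have key : ∀ i ≤ n, s / B ^ i % B = s' / B' ^ i % B' ∧
      s / B ^ (i + 1) % B = s' / B' ^ (i + 1) % B' := by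
    intro i
    induction i with
    | zero => exact fun _ => ⟨a2.trans b2.symm, Part.mem_unique a4 b4⟩
    | succ i ih =>
      intro hi
      obtain ⟨e1, e2⟩ := ih (by omega)
      obtain ⟨c1, c2⟩ := a5 i (by omega)
      obtain ⟨d1, d2⟩ := b5 i (by omega)
      rw [e1, e2] at c2
      have := Part.mem_unique c2 d2
      refine ⟨e2, ?_⟩
      rw [show i + 1 + 1 = i + 2 from rfl]
      omega
  obtain rfl : B = B' := by rw [a3, b3, (key n le_rfl).2]
  refine ⟨rfl, ?_⟩
  rw [eq_digit_sum _ _ a1, eq_digit_sum _ _ b1]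
  refine Finset.sum_congr rfl fun i hi => ?_
  rw [Finset.mem_range] at hi
  rcases Nat.lt_succ_iff_lt_or_eq.1 hi with h | rfl
  · rw [(key i (by omega)).1]
  · rw [(key n le_rfl).2]

theorem SF.partrec {F : ℕ →. ℕ} (hF : Nat.Partrec F) :
    ∀ {α : Type} {p q : (α → ℕ) → ℕ}, SFn p → SFn q → SF fun v => q v ∈ F (p v) := by
  suffices h : SF fun v : Fin 2 → ℕ => v 1 ∈ F (v 0) from
    fun {_ _ _} hp hq => SF.comp₂ (R := fun a z => z ∈ F a) h hp hq
  have use : ∀ {F : ℕ →. ℕ}, (SF fun v : Fin 2 → ℕ => v 1 ∈ F (v 0)) →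
      ∀ {α : Type} {p q : (α → ℕ) → ℕ}, SFn p → SFn q → SF fun v => q v ∈ F (p v) :=
    fun {F} h _ _ _ hp hq => SF.comp₂ (R := fun a z => z ∈ F a) h hp hq
  induction hF with
  | zero => exact (SF.eq (SFn.proj 1) (SFn.const 0)).congr fun v => Part.mem_some_iff.symm
  | succ =>
    exact (SF.eq (SFn.proj 1) ((SFn.proj 0).add (SFn.const 1))).congr
      fun v => Part.mem_some_iff.symm
  | left => exact (SF.eq (SFn.proj 1) (SFn.proj 0).unpair_fst).congr fun v => Part.mem_some_iff.symm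
  | right =>
    exact (SF.eq (SFn.proj 1) (SFn.proj 0).unpair_snd).congr fun v => Part.mem_some_iff.symm
  | @pair f g _ _ hf hg =>
    refine ((use hf (SFn.proj 0) (SFn.proj 1).unpair_fst).and
      (use hg (SFn.proj 0) (SFn.proj 1).unpair_snd)).congr fun v => ?_
    simp only [Seq.seq, Part.map_eq_map, Part.mem_bind_iff, Part.mem_map_iff]
    constructor
    · rintro ⟨h1, h2⟩
      exact ⟨_, ⟨_, h1, rfl⟩, _, h2, Nat.pair_unpair _⟩
    · rintro ⟨_, ⟨x, h1, rfl⟩, y, h2, e⟩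
      rw [← e, Nat.unpair_pair]
      exact ⟨h1, h2⟩
  | @comp f g _ _ hf hg =>
    have : SF fun v : Fin 2 → ℕ => ∃ x, x ∈ g (v 0) ∧ v 1 ∈ f x :=
      SF.exU ((use hg (SFn.proj _) (SFn.proj _)).and (use hf (SFn.proj _) (SFn.proj _)))
        fun v x y hx hy => Part.mem_unique hx.1 hy.1
    exact this.congr fun v => Part.mem_bind_iff.symm
  | @prec f g _ _ hf hg =>
    have h1 : SF fun w : Fin 3 ⊕ Fin 2 → ℕ =>
        Theta f g (w (.inl 0)) (w (.inl 1)) (w (.inl 2)) (w (.inr 0)) (w (.inr 1)) := by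
      unfold Theta
      repeat' first
        | with_reducible exact SFn.proj _
        | with_reducible exact SFn.const _
        | with_reducible apply SF.and
        | with_reducible apply use hf
        | with_reducible apply use hg
        | with_reducible apply SF.eq
        | with_reducible apply SF.lt
        | with_reducible apply SF.le
        | with_reducible apply SFn.add
        | with_reducible apply SFn.sub
        | with_reducible apply SFn.div
        | with_reducible apply SFn.mod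
        | with_reducible apply SFn.pow
        | with_reducible apply SFn.pair
        | (with_reducible refine SF.ball ?_ (SFn.proj _)); beta_reduce
    have h2 := SF.exV (R := fun (v : Fin 3 → ℕ) (w : Fin 2 → ℕ) =>
      Theta f g (v 0) (v 1) (v 2) (w 0) (w 1)) h1 fun v w w' a b => by
        obtain ⟨e1, e2⟩ := theta_unique a b
        funext i
        fin_cases i
        · exact e1
        · exact e2
    have h3 := SF.comp₃ (R := fun a n z => ∃ w : Fin 2 → ℕ, Theta f g a n z (w 0) (w 1)) h2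
      (SFn.proj (0 : Fin 2)).unpair_fst (SFn.proj (0 : Fin 2)).unpair_snd (SFn.proj (1 : Fin 2))
    refine h3.congr fun v => ?_
    rw [Nat.unpaired, mem_prec, ← theta_iff]
    exact ⟨fun ⟨w, h⟩ => ⟨_, _, h⟩, fun ⟨B, s, h⟩ => ⟨![B, s], h⟩⟩
  | @rfind f _ hf =>
    have h1 : SF fun v : Option (Fin 2) → ℕ =>
        ∃ x, x ∈ f (Nat.pair (v (some 0)) (v none)) ∧ x ≠ 0 :=
      SF.exU ((use hf ((SFn.proj _).pair (SFn.proj _)) (SFn.proj _)).and
        (SF.ne (SFn.proj _) (SFn.const 0))) fun v x y hx hy => Part.mem_unique hx.1 hy.1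
    have h2 := SF.ball (R := fun (v : Fin 2 → ℕ) m => ∃ x, x ∈ f (Nat.pair (v 0) m) ∧ x ≠ 0) h1
      (SFn.proj 1)
    refine ((use hf ((SFn.proj 0).pair (SFn.proj 1)) (SFn.const 0)).and h2).congr fun v => ?_
    refine Iff.trans ?_ Nat.mem_rfind.symm
    simp [eq_comm]

theorem SFn.encode_list {α : Type} :
    ∀ (n : ℕ) (F : Fin n → (α → ℕ) → ℕ), (∀ i, SFn (F i)) →
      SFn fun v => Encodable.encode (List.ofFn fun i => F i v)
  | 0, _, _ => (SFn.const 0).congr fun v => by simp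
  | n + 1, F, h =>
    (((h 0).pair (SFn.encode_list n (fun i => F i.succ) fun i => h _)).add (SFn.const 1)).congr
      fun v => by simp [List.ofFn_succ]

theorem SF.rePred {n : ℕ} {p : (Fin n → ℕ) → Prop} (hp : REPred p) : SF p := by
  have h1 := SF.partrec hp (SFn.encode_list n (fun i v => v i) fun i => SFn.proj i) (SFn.const 0)
  refine h1.congr fun v => ?_
  have e : Encodable.encode (List.ofFn fun i => v i) =
      @Encodable.encode _ Primcodable.finArrow.toEncodable v := by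
    change _ = Encodable.encode (List.Vector.ofFn v).toList
    rw [List.Vector.toList_ofFn]
  rw [e, @Encodable.encodek _ Primcodable.finArrow.toEncodable v]
  simpa [Part.mem_assert_iff] using fun _ => ⟨(), rfl⟩

theorem isPoly_mv {γ : Type} {p : (γ → ℕ) → ℤ} (hp : IsPoly p) :
    ∃ P : MvPolynomial γ ℤ, ∀ w : γ → ℕ, MvPolynomial.eval (fun i => (w i : ℤ)) P = p w := by
  induction hp with
  | proj i => exact ⟨MvPolynomial.X i, fun w => by simp⟩
  | const n => exact ⟨MvPolynomial.C n, fun w => by simp⟩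
  | sub _ _ h1 h2 =>
    obtain ⟨P, a⟩ := h1
    obtain ⟨Q, b⟩ := h2
    exact ⟨P - Q, fun w => by simp [a, b]⟩
  | mul _ _ h1 h2 =>
    obtain ⟨P, a⟩ := h1
    obtain ⟨Q, b⟩ := h2
    exact ⟨P * Q, fun w => by simp [a, b]⟩

theorem SF.final {n : ℕ} {S : (Fin n → ℕ) → Prop} (h : SF S) :
    ∃ (m : ℕ) (P : MvPolynomial (Fin n ⊕ Fin m) ℤ), ∀ a : Fin n → ℕ,
      (S a ↔ ∃ w : Fin m → ℕ,
        MvPolynomial.eval (Sum.elim (fun i => (a i : ℤ)) (fun j => (w j : ℤ))) P = 0) ∧
      {w : Fin m → ℕ |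
        MvPolynomial.eval (Sum.elim (fun i => (a i : ℤ)) (fun j => (w j : ℤ))) P = 0}.Subsingleton := by
  obtain ⟨β, hβ, p, hp, H⟩ := h
  obtain ⟨m, ⟨e⟩⟩ := Finite.exists_equiv_fin β
  obtain ⟨P, hP⟩ := isPoly_mv (hp.subst (γ := Fin n ⊕ Fin m) (fun w i => w (.inl i))
    (fun w j => w (.inr (e j))) (fun i => IsPoly.proj _) fun j => IsPoly.proj _)
  have ev : ∀ (a : Fin n → ℕ) (w : Fin m → ℕ),
      MvPolynomial.eval (Sum.elim (fun i => (a i : ℤ)) (fun j => (w j : ℤ))) P =
        p a fun j => w (e j) := by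
    intro a w
    rw [← show _ = p a fun j => w (e j) from hP (Sum.elim a w)]
    congr 2
    funext x
    rcases x with i | j <;> rfl
  refine ⟨m, P, fun a => ⟨(H a).1.trans ⟨?_, ?_⟩, ?_⟩⟩
  · rintro ⟨t, ht⟩
    exact ⟨fun j => t (e.symm j), by simpa [ev] using ht⟩
  · rintro ⟨w, hw⟩
    exact ⟨_, (ev a w).symm.trans hw⟩
  · intro w hw w' hw'
    have := (H a).2 _ _ ((ev a w).symm.trans hw) ((ev a w').symm.trans hw')
    funext j
    simpa using congrFun this (e.symm j)

end Vale.Agent.P345
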